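import Vale.Agent.P126.Master

/-!
# Symmetric convex bodies: polars, bipolars, volumes
-/

namespace Vale.Agent.P126

open Finset Filter Topology MeasureTheory
open scoped Pointwise

variable {E : Type*} [NormedAddCommGroup E] [InnerProductSpace ℝ E] [FiniteDimensional ℝ E]

omit [FiniteDimensional ℝ E] in
lemma pol_eq_Lb (K : Set E) : pol K = Lb K 1 := by
  ext y
  unfold pol Lb
  simp only [Set.mem_ofPred_eq]
  constructor <;> intro h x hx <;> rw [real_inner_comm] <;> exact h x hx

omit [FiniteDimensional ℝ E] in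
lemma smul_pol (K : Set E) {t : ℝ} (ht : 0 < t) : t • pol K = Lb K t := by
  ext y
  rw [Set.mem_smul_set_iff_inv_smul_mem₀ ht.ne', pol_eq_Lb]
  unfold Lb
  simp only [Set.mem_ofPred_eq]
  constructor
  · intro h x hx
    have := h x hx
    rw [real_inner_smul_left, ← div_eq_inv_mul, div_le_one ht] at this
    exact this
  · intro h x hx
    rw [real_inner_smul_left, ← div_eq_inv_mul, div_le_one ht]
    exact h x hx

omit [FiniteDimensional ℝ E] in
lemma Body.ball {K : Set E} (hK : Body K) : ∃ r > 0, ∀ x, ‖x‖ ≤ r → x ∈ K := by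
  obtain ⟨x0, hx0⟩ := hK.interior_nonempty
  rw [mem_interior_iff_mem_nhds, Metric.mem_nhds_iff] at hx0
  obtain ⟨ε, hε, hball⟩ := hx0
  refine ⟨ε / 2, by positivity, fun x hx => ?_⟩
  have h1 : x0 + x ∈ K := by
    apply hball
    rw [Metric.mem_ball, dist_eq_norm]
    simp only [add_sub_cancel_left]
    linarith
  have h2 : -(x0 - x) ∈ K := by
    apply hK.symm
    apply hball
    rw [Metric.mem_ball, dist_eq_norm, sub_sub_cancel_left, norm_neg]
    linarith
  have := hK.convex h1 h2 (show (0 : ℝ) ≤ 1 / 2 by norm_num) (show (0 : ℝ) ≤ 1 / 2 by norm_num)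
    (by norm_num)
  convert this using 1
  rw [← smul_add]
  have : x0 + x + -(x0 - x) = (2 : ℝ) • x := by rw [two_smul]; abel
  rw [this, smul_smul]
  norm_num

omit [FiniteDimensional ℝ E] in
lemma Body.zero {K : Set E} (hK : Body K) : (0 : E) ∈ K := by
  obtain ⟨r, hr, h⟩ := hK.ball
  exact h 0 (by simpa using hr.le)

omit [FiniteDimensional ℝ E] in
lemma Body.bdd {K : Set E} (hK : Body K) : ∃ R > 0, ∀ x ∈ K, ‖x‖ ≤ R := by
  obtain ⟨R, hR⟩ := hK.compact.isBounded.exists_norm_le
  exact ⟨max R 1, by positivity, fun x hx => (hR x hx).trans (le_max_left _ _)⟩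

omit [FiniteDimensional ℝ E] in
lemma Lb_closed (K : Set E) (t : ℝ) : IsClosed (Lb K t) := by
  have : Lb K t = ⋂ y ∈ K, {z : E | inner ℝ z y ≤ t} := by
    ext z; simp [Lb]
  rw [this]
  refine isClosed_biInter fun y _ => ?_
  exact isClosed_le (by fun_prop) continuous_const

omit [FiniteDimensional ℝ E] in
lemma Lb_convex (K : Set E) (t : ℝ) : Convex ℝ (Lb K t) := by
  intro z1 h1 z2 h2 a1 a2 ha1 ha2 ha y hy
  rw [inner_add_left, real_inner_smul_left, real_inner_smul_left]
  have b1 := mul_le_mul_of_nonneg_left (h1 y hy) ha1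
  have b2 := mul_le_mul_of_nonneg_left (h2 y hy) ha2
  have b3 : a1 * t + a2 * t = t := by rw [← add_mul, ha, one_mul]
  linarith

lemma Body.Lb {K : Set E} (hK : Body K) {t : ℝ} (ht : 0 < t) : Body (Lb K t) := by
  obtain ⟨r, hr, hrK⟩ := hK.ball
  obtain ⟨R, hR, hRK⟩ := hK.bdd
  refine ⟨Lb_convex K t, ?_, ?_, ?_⟩
  · apply Metric.isCompact_of_isClosed_isBounded (Lb_closed K t)
    rw [isBounded_iff_forall_norm_le]
    refine ⟨t / r, fun z hz => ?_⟩
    by_cases hz0 : z = 0
    · rw [hz0, norm_zero]; positivity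
    have hzn : 0 < ‖z‖ := norm_pos_iff.2 hz0
    have h1 := hz ((r / ‖z‖) • z) (hrK _ (by
      rw [norm_smul, Real.norm_eq_abs, abs_of_pos (by positivity)]
      field_simp
      exact le_rfl))
    rw [real_inner_smul_right, real_inner_self_eq_norm_sq] at h1
    rw [le_div_iff₀ hr]
    have : r / ‖z‖ * ‖z‖ ^ 2 = ‖z‖ * r := by field_simp
    linarith
  · refine ⟨0, ?_⟩
    rw [mem_interior_iff_mem_nhds, Metric.mem_nhds_iff]
    refine ⟨t / R, by positivity, fun z hz y hy => ?_⟩
    rw [Metric.mem_ball, dist_zero_right, lt_div_iff₀ hR] at hz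
    have h1 := real_inner_le_norm z y
    have h2 := hRK y hy
    have h3 : ‖z‖ * ‖y‖ ≤ ‖z‖ * R := mul_le_mul_of_nonneg_left h2 (norm_nonneg _)
    linarith
  · intro z hz y hy
    rw [inner_neg_left, ← inner_neg_right]
    exact hz _ (hK.symm y hy)

lemma Body.pol {K : Set E} (hK : Body K) : Body (pol K) := by
  rw [pol_eq_Lb]
  exact hK.Lb one_pos

omit [FiniteDimensional ℝ E] in
lemma Body.cov {A B : Set E} (hA : Body A) (hB : Body B) : Cov A B := by
  obtain ⟨r, hr, hrB⟩ := hB.ball
  obtain ⟨t, _, htf, ht⟩ := hA.compact.finite_cover_balls hr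
  refine ⟨htf.toFinset, fun a ha => ?_⟩
  have := ht ha
  rw [Set.mem_iUnion₂] at this
  obtain ⟨x, hx, hx2⟩ := this
  refine ⟨x, by simpa using hx, hrB _ ?_⟩
  rw [Metric.mem_ball, dist_eq_norm] at hx2
  exact hx2.le

/-- bipolar theorem -/
lemma bipolar {L : Set E} (hL : Body L) : Lb (pol L) 1 = L := by
  haveI : CompleteSpace E := FiniteDimensional.complete ℝ E
  ext z
  constructor
  · intro hz
    by_contra hcon
    obtain ⟨f, u, h1, h2⟩ := geometric_hahn_banach_closed_point hL.convex hL.compact.isClosed hcon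
    have hu : 0 < u := by
      have := h1 0 hL.zero
      rwa [map_zero] at this
    set w := (InnerProductSpace.toDual ℝ E).symm f with hw
    have hf : ∀ v, f v = inner ℝ w v := by
      intro v
      rw [hw, InnerProductSpace.toDual_symm_apply]
    have hy : u⁻¹ • w ∈ pol L := by
      intro x hx
      rw [real_inner_smul_right, real_inner_comm, ← hf, ← div_eq_inv_mul, div_le_one hu]
      exact (h1 x hx).le
    have := hz _ hy
    rw [real_inner_smul_right, real_inner_comm, ← hf, ← div_eq_inv_mul, div_le_one hu] at this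
    linarith
  · intro hz y hy
    exact hy z hz

section volume

variable [MeasurableSpace E] [BorelSpace E]

omit [FiniteDimensional ℝ E] [MeasurableSpace E] [BorelSpace E] in
lemma Lb_smul (M : Set E) {t : ℝ} (ht : 0 < t) : Lb M t = t • Lb M 1 := by
  rw [← pol_eq_Lb, smul_pol M ht]

/-- volumetric bound for separated sets -/
lemma vol_bound {M : Set E} (hM : Body M) {R s : ℝ} (hR : 0 < R) (hs : 0 < s) (X : Finset E)
    (c : E) (hsep : Sep M s X) (hX : ∀ x ∈ X, x - c ∈ Lb M (R * s)) :
    (X.card : ℝ) ≤ (1 + 2 * R) ^ (Module.finrank ℝ E) := by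
  set μ : Measure E := MeasureTheory.Measure.addHaar with hμ
  set n := Module.finrank ℝ E with hn
  set v := μ (Lb M 1) with hv
  have hB := hM.Lb one_pos
  have hv0 : v ≠ 0 := by
    have h1 : 0 < μ (interior (Lb M 1)) :=
      isOpen_interior.measure_pos μ hB.interior_nonempty
    exact (h1.trans_le (measure_mono interior_subset)).ne'
  have hvt : v ≠ ⊤ := hB.compact.measure_lt_top.ne
  have hvol : ∀ t : ℝ, 0 < t → ∀ x : E, μ (x +ᵥ Lb M t) = ENNReal.ofReal (t ^ n) * v := by
    intro t ht x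
    rw [measure_vadd, Lb_smul M ht, Measure.addHaar_smul, abs_of_pos (pow_pos ht _)]
  have hmeas : ∀ t : ℝ, ∀ x : E, MeasurableSet (x +ᵥ Lb M t) := by
    intro t x
    exact ((Lb_closed M t).vadd x).measurableSet
  have hdisj : (X : Set E).PairwiseDisjoint fun x => x +ᵥ Lb M (s / 2) := by
    intro x hx x' hx' hne
    simp only [Function.onFun]
    rw [Set.disjoint_left]
    intro z hz hz'
    rw [Set.mem_vadd_set_iff_neg_vadd_mem, vadd_eq_add] at hz hz'
    obtain ⟨y, hy, hy2⟩ := hsep x hx x' hx' hne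
    have a1 := hz (-y) (hM.symm y hy)
    have a2 := hz' y hy
    rw [inner_neg_right] at a1
    rw [inner_add_left, inner_neg_left] at a1 a2
    rw [inner_sub_left] at hy2
    linarith
  have hsub : (⋃ x ∈ X, x +ᵥ Lb M (s / 2)) ⊆ c +ᵥ Lb M (R * s + s / 2) := by
    intro z hz
    rw [Set.mem_iUnion₂] at hz
    obtain ⟨x, hx, hz⟩ := hz
    rw [Set.mem_vadd_set_iff_neg_vadd_mem, vadd_eq_add] at hz ⊢
    intro y hy
    have a1 := hX x hx y hy
    have a2 := hz y hy
    rw [inner_add_left, inner_neg_left] at a2 ⊢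
    rw [inner_sub_left] at a1
    linarith
  have h1 := measure_mono (μ := μ) hsub
  rw [measure_biUnion_finset hdisj (fun x _ => hmeas _ x), hvol _ (by positivity)] at h1
  rw [Finset.sum_congr rfl (fun x _ => hvol (s / 2) (by positivity) x), Finset.sum_const,
    nsmul_eq_mul, ← mul_assoc] at h1
  have h2 := (ENNReal.mul_le_mul_iff_left hv0 hvt).1 h1
  have h3 : ((X.card : ℝ)) * (s / 2) ^ n ≤ (R * s + s / 2) ^ n := by
    have e1 : (X.card : ENNReal) * ENNReal.ofReal ((s / 2) ^ n)
        = ENNReal.ofReal ((X.card : ℝ) * (s / 2) ^ n) := by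
      rw [ENNReal.ofReal_mul (by positivity), ENNReal.ofReal_natCast]
    rw [e1] at h2
    exact (ENNReal.ofReal_le_ofReal_iff (by positivity)).1 h2
  have h4 : (R * s + s / 2) ^ n = (1 + 2 * R) ^ n * (s / 2) ^ n := by
    rw [← mul_pow]
    congr 1
    ring
  rw [h4] at h3
  exact le_of_mul_le_mul_right h3 (by positivity)

end volume

end Vale.Agent.P126
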