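import Vale.Agent.P126.Prob

/-!
# The core lemma: a separated set of small diameter gives a large fooling family
-/

namespace Vale.Agent.P126

open Finset Filter Topology

variable {ι : Type*} [Fintype ι]
variable {E : Type*} [NormedAddCommGroup E] [InnerProductSpace ℝ E]

/-- barycentre -/
noncomputable def bar (x : ι → E) (Q : ι → ℝ) : E := ∑ i, Q i • x i

lemma inner_bar (x : ι → E) (Q : ι → ℝ) (y : E) :
    inner ℝ (bar x Q) y = ∑ i, Q i * inner ℝ (x i) y := by
  unfold bar
  rw [sum_inner]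
  apply Finset.sum_congr rfl
  intro i _
  rw [real_inner_smul_left]

/-- derivative of the logarithm of the partition function -/
lemma hasDerivAt_logZ {P : ι → ℝ} (hP : PV P) (hPpos : ∀ i, 0 < P i) (a b : ι → ℝ) :
    HasDerivAt (fun t : ℝ => Real.log (Zf P fun i => a i + t * b i)) (∑ i, tilt P a i * b i) 0 := by
  have h1 : HasDerivAt (fun t : ℝ => Zf P fun i => a i + t * b i)
      (∑ i, P i * (Real.exp (a i + 0 * b i) * (1 * b i))) 0 := by
    unfold Zf
    apply HasDerivAt.fun_sum
    intro i _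
    apply HasDerivAt.const_mul
    apply HasDerivAt.exp
    apply HasDerivAt.const_add
    exact (hasDerivAt_id (0 : ℝ)).mul_const (b i)
  have hZ := Zf_pos hP hPpos fun i => a i + 0 * b i
  have h2 := h1.log hZ.ne'
  convert h2 using 1
  unfold tilt
  simp only [zero_mul, add_zero, one_mul]
  rw [Finset.sum_div]
  apply Finset.sum_congr rfl
  intro i _
  ring

/-- first order condition -/
lemma foc {M : Set E} (hM : Convex ℝ M) (x : ι → E) {P : ι → ℝ} (hP : PV P)
    (hPpos : ∀ i, 0 < P i) (z : E) {l : ℝ} (hl : 0 < l) {y y' : E} (hy : y ∈ M) (hy' : y' ∈ M)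
    (hmax : ∀ w ∈ M, l * inner ℝ z w - Real.log (Zf P fun i => l * inner ℝ (x i) w)
      ≤ l * inner ℝ z y - Real.log (Zf P fun i => l * inner ℝ (x i) y)) :
    inner ℝ (z - bar x (tilt P fun i => l * inner ℝ (x i) y)) (y' - y) ≤ 0 := by
  set φ : ℝ → ℝ := fun t => (l * inner ℝ z y + t * (l * inner ℝ z (y' - y)))
    - Real.log (Zf P fun i => l * inner ℝ (x i) y + t * (l * inner ℝ (x i) (y' - y))) with hφ
  have hd : HasDerivAt φ (1 * (l * inner ℝ z (y' - y))
      - ∑ i, tilt P (fun i => l * inner ℝ (x i) y) i * (l * inner ℝ (x i) (y' - y))) 0 := by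
    apply HasDerivAt.sub
    · apply HasDerivAt.const_add
      exact (hasDerivAt_id (0 : ℝ)).mul_const _
    · exact hasDerivAt_logZ hP hPpos (fun i => l * inner ℝ (x i) y)
        (fun i => l * inner ℝ (x i) (y' - y))
  have hle : ∀ t ∈ Set.Ioc (0 : ℝ) 1, t⁻¹ • (φ (0 + t) - φ 0) ≤ 0 := by
    intro t ht
    have hmem : y + t • (y' - y) ∈ M := by
      have := hM hy hy' (show 0 ≤ 1 - t by linarith [ht.2]) ht.1.le (by ring)
      convert this using 1
      rw [sub_smul, one_smul, smul_sub]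
      abel
    have h1 := hmax _ hmem
    have e1 : ∀ v : E, l * inner ℝ v (y + t • (y' - y))
        = l * inner ℝ v y + t * (l * inner ℝ v (y' - y)) := by
      intro v
      rw [inner_add_right, real_inner_smul_right]
      ring
    simp only [e1] at h1
    have h2 : φ (0 + t) - φ 0 ≤ 0 := by
      simp only [hφ, zero_add, zero_mul, add_zero]
      linarith
    rw [smul_eq_mul]
    exact mul_nonpos_of_nonneg_of_nonpos (inv_nonneg.2 ht.1.le) h2
  have h3 := hd.tendsto_slope_zero_right
  have h4 : 1 * (l * inner ℝ z (y' - y))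
      - ∑ i, tilt P (fun i => l * inner ℝ (x i) y) i * (l * inner ℝ (x i) (y' - y)) ≤ 0 := by
    apply le_of_tendsto h3
    filter_upwards [Ioc_mem_nhdsGT (zero_lt_one' ℝ)] with t ht
    exact hle t ht
  rw [inner_sub_left, inner_bar]
  have e : ∑ i, tilt P (fun i => l * inner ℝ (x i) y) i * (l * inner ℝ (x i) (y' - y))
      = l * ∑ i, tilt P (fun i => l * inner ℝ (x i) y) i * inner ℝ (x i) (y' - y) := by
    rw [Finset.mul_sum]
    apply Finset.sum_congr rfl
    intro i _
    ring
  rw [e] at h4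
  have h5 : l * (inner ℝ z (y' - y)
      - ∑ i, tilt P (fun i => l * inner ℝ (x i) y) i * inner ℝ (x i) (y' - y)) ≤ l * 0 := by
    linarith
  exact le_of_mul_le_mul_left h5 hl

/-- a tilt that approximates a given vector -/
lemma approx_tilt {M : Set E} (hMc : IsCompact M) (hM : Convex ℝ M) (h0 : (0 : E) ∈ M)
    (x : ι → E) {P Q : ι → ℝ} (hP : PV P) (hPpos : ∀ i, 0 < P i) (hQ : PV Q) {D l : ℝ}
    (hl : 0 < l) (hD : kl Q P ≤ D) :
    ∃ y ∈ M, ∀ y' ∈ M,
      inner ℝ (bar x Q - bar x (tilt P fun i => l * inner ℝ (x i) y)) y' ≤ D / l := by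
  have hcont : Continuous fun w : E => l * inner ℝ (bar x Q) w
      - Real.log (Zf P fun i => l * inner ℝ (x i) w) := by
    apply Continuous.sub
    · fun_prop
    · apply Continuous.log
      · unfold Zf
        fun_prop
      · intro w
        exact (Zf_pos hP hPpos _).ne'
  obtain ⟨y, hy, hmax⟩ := hMc.exists_isMaxOn ⟨0, h0⟩ hcont.continuousOn
  refine ⟨y, hy, fun y' hy' => ?_⟩
  have h1 := foc hM x hP hPpos (bar x Q) hl hy hy' (fun w hw => hmax hw)
  rw [inner_sub_right] at h1
  have h2 := dv hQ hP hPpos fun i => l * inner ℝ (x i) y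
  have h3 := kl_tilt hP hPpos fun i => l * inner ℝ (x i) y
  have h4 := kl_nonneg (tilt_pv hP hPpos fun i => l * inner ℝ (x i) y) hP hPpos
  have e1 : ∀ W : ι → ℝ, ∑ i, W i * (l * inner ℝ (x i) y) = l * inner ℝ (bar x W) y := by
    intro W
    rw [inner_bar, Finset.mul_sum]
    apply Finset.sum_congr rfl
    intro i _
    ring
  rw [e1] at h2 h3
  have h5 : l * inner ℝ (bar x Q - bar x (tilt P fun i => l * inner ℝ (x i) y)) y ≤ D := by
    rw [inner_sub_left, mul_sub]
    linarith
  have h6 : inner ℝ (bar x Q - bar x (tilt P fun i => l * inner ℝ (x i) y)) y ≤ D / l := by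
    rw [le_div_iff₀ hl]
    linarith
  linarith

lemma bar_mem (x : ι → E) {Q : ι → ℝ} (hQ : PV Q) : bar x Q ∈ convexHull ℝ (Set.range x) := by
  apply (convex_convexHull ℝ (Set.range x)).sum_mem (fun i _ => hQ.nn i) hQ.sum
  intro i _
  exact subset_convexHull ℝ _ ⟨i, rfl⟩

lemma skl_bar (x : ι → E) {P : ι → ℝ} (hP : PV P) (hPpos : ∀ i, 0 < P i) {l : ℝ} (y y' : E) :
    kl (tilt P fun i => l * inner ℝ (x i) y) (tilt P fun i => l * inner ℝ (x i) y')
      + kl (tilt P fun i => l * inner ℝ (x i) y') (tilt P fun i => l * inner ℝ (x i) y)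
    = l * inner ℝ (bar x (tilt P fun i => l * inner ℝ (x i) y)
        - bar x (tilt P fun i => l * inner ℝ (x i) y')) (y - y') := by
  rw [skl hP hPpos, inner_sub_left, inner_bar, inner_bar, ← Finset.sum_sub_distrib, Finset.mul_sum]
  apply Finset.sum_congr rfl
  intro i _
  rw [inner_sub_right]
  ring

/-- fooling families -/
def Fool (C M : Set E) (δ : ℝ) (S : Finset (E × E)) : Prop :=
  (∀ p ∈ S, p.1 ∈ C ∧ p.2 ∈ M) ∧
    ∀ p ∈ S, ∀ q ∈ S, p ≠ q → δ < |inner ℝ (p.1 - q.1) (p.2 - q.2)|

open Classical in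
/-- a finite set of pairs contains a fooling family that is a net -/
lemma exists_fool (C M : Set E) {δ : ℝ} (hδ : 0 ≤ δ) (W : Finset (E × E))
    (hW : ∀ p ∈ W, p.1 ∈ C ∧ p.2 ∈ M) :
    ∃ S ⊆ W, Fool C M δ S ∧ ∀ p ∈ W, ∃ q ∈ S, |inner ℝ (p.1 - q.1) (p.2 - q.2)| ≤ δ := by
  obtain ⟨S, hS, hmax⟩ := Finset.exists_max_image
    (W.powerset.filter fun S => Fool C M δ S) Finset.card
    ⟨∅, by simp [Fool]⟩
  rw [Finset.mem_filter, Finset.mem_powerset] at hS
  refine ⟨S, hS.1, hS.2, ?_⟩
  intro p hp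
  by_contra hcon
  push Not at hcon
  have hpS : p ∉ S := by
    intro h
    have := hcon p h
    simp only [sub_self, inner_zero_left, abs_zero] at this
    linarith
  have h1 : insert p S ∈ W.powerset.filter fun S => Fool C M δ S := by
    rw [Finset.mem_filter, Finset.mem_powerset]
    refine ⟨Finset.insert_subset hp hS.1, ?_, ?_⟩
    · intro q hq
      rw [Finset.mem_insert] at hq
      rcases hq with rfl | hq
      · exact hW _ hp
      · exact hS.2.1 q hq
    · intro q hq r hr hne
      rw [Finset.mem_insert] at hq hr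
      rcases hq with rfl | hq <;> rcases hr with rfl | hr
      · exact absurd rfl hne
      · exact hcon r hr
      · have h2 := hcon q hq
        rw [← neg_sub q.1 r.1, ← neg_sub q.2 r.2, inner_neg_neg] at h2
        exact h2
      · exact hS.2.2 q hq r hr hne
  have h2 := hmax _ h1
  rw [Finset.card_insert_of_notMem hpS] at h2
  omega

end Vale.Agent.P126
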