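import Mathlib

/-!
# Covering numbers, polars, symmetric convex bodies
-/

namespace Vale.Agent.P126

variable {E : Type*} [NormedAddCommGroup E] [InnerProductSpace ℝ E]

/-- the least number of translates `x + B` whose union contains `A` -/
noncomputable def covN (A B : Set E) : ℕ :=
  sInf {m | ∃ F : Finset E, F.card = m ∧ ∀ a ∈ A, ∃ x ∈ F, a - x ∈ B}

/-- origin-symmetric convex bodies -/
structure Body (K : Set E) : Prop where
  convex : Convex ℝ K
  compact : IsCompact K
  interior_nonempty : (interior K).Nonempty
  symm : ∀ x ∈ K, -x ∈ K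

/-- the polar -/
def pol (K : Set E) : Set E := {y | ∀ x ∈ K, inner ℝ x y ≤ 1}

end Vale.Agent.P126
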