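import Vale.Agent.P126.Rounds
import Vale.Agent.P126.Defs

/-!
# Covering numbers, scales, stacking
-/

namespace Vale.Agent.P126

open Finset Filter Topology

variable {E : Type*} [NormedAddCommGroup E] [InnerProductSpace ℝ E]

/-- `s` times the polar of `M` -/
def Lb (M : Set E) (s : ℝ) : Set E := {z | ∀ y ∈ M, inner ℝ z y ≤ s}

/-- finitely many translates of `B` cover `A` -/
def Cov (A B : Set E) : Prop := ∃ F : Finset E, ∀ a ∈ A, ∃ x ∈ F, a - x ∈ B

lemma covN_le {A B : Set E} (F : Finset E) (h : ∀ a ∈ A, ∃ x ∈ F, a - x ∈ B) :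
    covN A B ≤ F.card := Nat.sInf_le ⟨F, rfl, h⟩

lemma exists_cover {A B : Set E} (h : Cov A B) :
    ∃ F : Finset E, F.card = covN A B ∧ ∀ a ∈ A, ∃ x ∈ F, a - x ∈ B := by
  obtain ⟨F, hF⟩ := h
  have : covN A B ∈ {m | ∃ F : Finset E, F.card = m ∧ ∀ a ∈ A, ∃ x ∈ F, a - x ∈ B} :=
    Nat.sInf_mem ⟨F.card, F, rfl, hF⟩
  exact this

lemma covN_anti {A B B' : Set E} (hB : B ⊆ B') (h : Cov A B) : covN A B' ≤ covN A B := by
  obtain ⟨F, h1, h2⟩ := exists_cover h
  rw [← h1]
  apply covN_le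
  intro a ha
  obtain ⟨x, hx, hx2⟩ := h2 a ha
  exact ⟨x, hx, hB hx2⟩

lemma Cov.mono {A B B' : Set E} (h : Cov A B) (hB : B ⊆ B') : Cov A B' := by
  obtain ⟨F, hF⟩ := h
  refine ⟨F, fun a ha => ?_⟩
  obtain ⟨x, hx, hx2⟩ := hF a ha
  exact ⟨x, hx, hB hx2⟩

lemma Lb_mono (M : Set E) {s t : ℝ} (h : s ≤ t) : Lb M s ⊆ Lb M t :=
  fun _ hz y hy => (hz y hy).trans h

/-- separated sets -/
def Sep (M : Set E) (s : ℝ) (X : Finset E) : Prop :=
  ∀ x ∈ X, ∀ x' ∈ X, x ≠ x' → ∃ y ∈ M, s < inner ℝ (x - x') y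

open Classical in
/-- separated sets of the size of the covering number -/
lemma exists_sep {K M : Set E} (hMs : ∀ y ∈ M, -y ∈ M) {s : ℝ} (hs : 0 ≤ s) (m : ℕ)
    (hm : m ≤ covN K (Lb M s)) : ∃ X : Finset E, X.card = m ∧ (∀ x ∈ X, x ∈ K) ∧ Sep M s X := by
  induction m with
  | zero => exact ⟨∅, by simp, by simp, by intro x hx; simp at hx⟩
  | succ m ih =>
    obtain ⟨X, h1, h2, h3⟩ := ih (by omega)
    have h4 : ∃ a ∈ K, ∀ x ∈ X, a - x ∉ Lb M s := by
      by_contra hcon
      push Not at hcon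
      have := covN_le X hcon
      omega
    obtain ⟨a, ha, ha2⟩ := h4
    have haX : a ∉ X := by
      intro h
      apply ha2 a h
      intro y _
      rw [sub_self, inner_zero_left]
      exact hs
    refine ⟨insert a X, by rw [Finset.card_insert_of_notMem haX, h1], ?_, ?_⟩
    · intro x hx
      rw [Finset.mem_insert] at hx
      rcases hx with rfl | hx
      · exact ha
      · exact h2 x hx
    · have key : ∀ x ∈ X, ∃ y ∈ M, s < inner ℝ (a - x) y := by
        intro x hx
        have := ha2 x hx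
        unfold Lb at this
        simp only [Set.mem_ofPred_eq, not_forall, not_le] at this
        obtain ⟨y, hy, hy2⟩ := this
        exact ⟨y, hy, hy2⟩
      intro x hx x' hx' hne
      rw [Finset.mem_insert] at hx hx'
      rcases hx with rfl | hx <;> rcases hx' with rfl | hx'
      · exact absurd rfl hne
      · exact key x' hx'
      · obtain ⟨y, hy, hy2⟩ := key x hx
        refine ⟨-y, hMs y hy, ?_⟩
        rw [inner_neg_right, ← inner_neg_left, neg_sub]
        exact hy2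
      · exact h3 x hx x' hx' hne

/-- separated sets are small -/
lemma sep_card_le {A K : Set E} (hKs : ∀ y ∈ K, -y ∈ K) {t : ℝ} (hc : Cov A (Lb K (t / 2)))
    (Y : Finset E) (hY : ∀ y ∈ Y, y ∈ A) (hsep : Sep K t Y) : Y.card ≤ covN A (Lb K (t / 2)) := by
  classical
  obtain ⟨F, h1, h2⟩ := exists_cover hc
  rw [← h1]
  have h3 : ∀ y, ∃ x, y ∈ Y → x ∈ F ∧ y - x ∈ Lb K (t / 2) := by
    intro y
    by_cases hy : y ∈ Y
    · obtain ⟨x, hx, hx2⟩ := h2 y (hY y hy)
      exact ⟨x, fun _ => ⟨hx, hx2⟩⟩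
    · exact ⟨0, fun h => absurd h hy⟩
  choose c hc using h3
  apply Finset.card_le_card_of_injOn c (fun y hy => (hc y hy).1)
  intro y hy y' hy' heq
  by_contra hne
  obtain ⟨z, hz, hz2⟩ := hsep y hy y' hy' hne
  have a1 := (hc y hy).2 z hz
  have a2 := (hc y' hy').2 (-z) (hKs z hz)
  rw [← heq] at a2
  rw [inner_neg_right] at a2
  rw [inner_sub_left] at a1 a2 hz2
  linarith

/-- fooling families of `K × M` at scale `s` -/
structure FK (K M : Set E) (δ s s' : ℝ) (S : Finset (E × E)) : Prop where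
  mem : ∀ p ∈ S, p.1 ∈ K ∧ p.2 ∈ M
  sep : ∀ p ∈ S, ∀ q ∈ S, p ≠ q → δ * s < |inner ℝ (p.1 - q.1) (p.2 - q.2)|
  diam : ∀ p ∈ S, ∀ q ∈ S, ∀ y ∈ M, inner ℝ (p.1 - q.1) y ≤ 2 * s'

/-- stacking -/
lemma stack {K M : Set E} (hK : Convex ℝ K) (hKs : ∀ x ∈ K, -x ∈ K) (hM : Convex ℝ M)
    (hMs : ∀ x ∈ M, -x ∈ M) (hM0 : (0 : E) ∈ M) {δ R : ℝ} (hδ : 0 < δ) (hR : 16 ≤ δ * R)
    (hR1 : 2 ≤ R)
    (S : ℕ → Finset (E × E)) (hS : ∀ j, FK K M δ (R ^ j) (R ^ (j + 1)) (S j)) (m : ℕ) :
    ∀ j, ∃ Y : Finset E, Y.card = ∏ i ∈ Finset.range m, (S (j + 2 * i)).card ∧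
      (∀ y ∈ Y, y ∈ M) ∧ Sep K (δ / 8 * R ^ j) Y := by
  classical
  induction m with
  | zero =>
    intro j
    refine ⟨{0}, by simp, ?_, ?_⟩
    · intro y hy
      rw [Finset.mem_singleton] at hy
      rw [hy]; exact hM0
    · intro x hx x' hx' hne
      rw [Finset.mem_singleton] at hx hx'
      exact absurd (hx.trans hx'.symm) hne
  | succ m ih =>
    intro j
    obtain ⟨Y, hY1, hY2, hY3⟩ := ih (j + 2)
    have hRpos : 0 < R := by linarith
    set f : (E × E) × E → E := fun w => (1 / 2 : ℝ) • w.1.2 + (R ^ 2)⁻¹ • w.2 with hf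
    have key : ∀ w ∈ S j ×ˢ Y, ∀ w' ∈ S j ×ˢ Y, w ≠ w' →
        ∃ x ∈ K, δ / 8 * R ^ j < inner ℝ (f w - f w') x := by
      rintro ⟨p, y⟩ hw ⟨p', y'⟩ hw' hne
      rw [Finset.mem_product] at hw hw'
      simp only at hw hw'
      have hfd : f (p, y) - f (p', y') = (1 / 2 : ℝ) • (p.2 - p'.2) + (R ^ 2)⁻¹ • (y - y') := by
        simp only [hf]
        rw [smul_sub, smul_sub]
        abel
      by_cases hpp : p = p'
      · subst hpp
        have hyy : y ≠ y' := fun h => hne (by rw [h])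
        obtain ⟨x, hx, hx2⟩ := hY3 y hw.2 y' hw'.2 hyy
        refine ⟨x, hx, ?_⟩
        rw [hfd, sub_self, smul_zero, zero_add, real_inner_smul_left]
        have e : δ / 8 * R ^ j = (R ^ 2)⁻¹ * (δ / 8 * R ^ (j + 2)) := by
          rw [pow_add]
          field_simp
        rw [e]
        exact mul_lt_mul_of_pos_left hx2 (by positivity)
      · have hF := hS j
        have h1 := hF.sep p hw.1 p' hw'.1 hpp
        have hd1 := hF.diam p hw.1 p' hw'.1
        have b1 := hd1 y (hY2 y hw.2)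
        have b2 := hd1 (-y') (hMs _ (hY2 y' hw'.2))
        have b3 := hd1 (-y) (hMs _ (hY2 y hw.2))
        have b4 := hd1 y' (hY2 y' hw'.2)
        rw [inner_neg_right] at b2 b3
        set D := p.1 - p'.1 with hD
        have hb : |inner ℝ D (y - y')| ≤ 4 * R ^ (j + 1) := by
          rw [inner_sub_right, abs_le]
          constructor <;> linarith
        have hb2 : |(R ^ 2)⁻¹ * inner ℝ D (y - y')| ≤ δ / 4 * R ^ j := by
          rw [abs_mul, abs_of_pos (by positivity)]
          calc (R ^ 2)⁻¹ * |inner ℝ D (y - y')| ≤ (R ^ 2)⁻¹ * (4 * R ^ (j + 1)) :=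
                mul_le_mul_of_nonneg_left hb (by positivity)
            _ = 4 * R ^ j / R := by
                rw [pow_succ]
                field_simp
                ring
            _ ≤ δ / 4 * R ^ j := by
                rw [div_le_iff₀ hRpos]
                have : 0 < R ^ j := by positivity
                nlinarith
        have e : inner ℝ D (f (p, y) - f (p', y'))
            = 1 / 2 * inner ℝ D (p.2 - p'.2) + (R ^ 2)⁻¹ * inner ℝ D (y - y') := by
          rw [hfd, inner_add_right, real_inner_smul_right, real_inner_smul_right]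
        have hlow : δ / 4 * R ^ j < |inner ℝ D (f (p, y) - f (p', y'))| := by
          rw [e]
          have a1 : |1 / 2 * inner ℝ D (p.2 - p'.2)| = 1 / 2 * |inner ℝ D (p.2 - p'.2)| := by
            rw [abs_mul, abs_of_pos (by norm_num : (0 : ℝ) < 1 / 2)]
          have a2 := abs_sub_abs_le_abs_sub (1 / 2 * inner ℝ D (p.2 - p'.2))
            (-((R ^ 2)⁻¹ * inner ℝ D (y - y')))
          rw [abs_neg, sub_neg_eq_add, a1] at a2
          linarith
        have hmid : (1 / 2 : ℝ) • D ∈ K := by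
          have := hK (hF.mem p hw.1).1 (hKs _ (hF.mem p' hw'.1).1)
            (show (0 : ℝ) ≤ 1 / 2 by norm_num) (show (0 : ℝ) ≤ 1 / 2 by norm_num) (by norm_num)
          rw [hD, smul_sub, sub_eq_add_neg, ← smul_neg]
          exact this
        rcases lt_abs.1 hlow with h5 | h5
        · refine ⟨(1 / 2 : ℝ) • D, hmid, ?_⟩
          rw [real_inner_smul_right, real_inner_comm]
          linarith
        · refine ⟨-((1 / 2 : ℝ) • D), hKs _ hmid, ?_⟩
          rw [inner_neg_right, real_inner_smul_right, real_inner_comm]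
          linarith
    have hinj : Set.InjOn f (S j ×ˢ Y : Finset _) := by
      intro w hw w' hw' heq
      by_contra hne
      obtain ⟨x, _, hx⟩ := key w hw w' hw' hne
      rw [heq, sub_self, inner_zero_left] at hx
      have : 0 < δ / 8 * R ^ j := by positivity
      linarith
    refine ⟨(S j ×ˢ Y).image f, ?_, ?_, ?_⟩
    · rw [Finset.card_image_of_injOn hinj, Finset.card_product, hY1, Finset.prod_range_succ']
      rw [mul_comm]
      congr 1
      apply Finset.prod_congr rfl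
      intro i _
      congr 2
      ring
    · intro z hz
      rw [Finset.mem_image] at hz
      obtain ⟨⟨p, y⟩, hw, rfl⟩ := hz
      rw [Finset.mem_product] at hw
      have hp := ((hS j).mem p hw.1).2
      have hy := hY2 y hw.2
      have hc : (R ^ 2)⁻¹ ≤ 1 / 2 := by
        rw [inv_le_comm₀ (by positivity) (by norm_num)]
        nlinarith
      have h1 := hM hy hM0 (show 0 ≤ 2 * (R ^ 2)⁻¹ by positivity)
        (show 0 ≤ 1 - 2 * (R ^ 2)⁻¹ by linarith) (by ring)
      have h2 := hM hp h1 (show (0 : ℝ) ≤ 1 / 2 by norm_num) (show (0 : ℝ) ≤ 1 / 2 by norm_num)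
        (by norm_num)
      have e : f (p, y) = (1 / 2 : ℝ) • p.2
          + (1 / 2 : ℝ) • ((2 * (R ^ 2)⁻¹) • y + (1 - 2 * (R ^ 2)⁻¹) • (0 : E)) := by
        simp only [hf, smul_zero, add_zero]
        rw [smul_smul]
        congr 2
        ring
      rw [e]
      exact h2
    · intro z hz z' hz' hne
      rw [Finset.mem_image] at hz hz'
      obtain ⟨w, hw, rfl⟩ := hz
      obtain ⟨w', hw', rfl⟩ := hz'
      exact key w hw w' hw' (fun h => hne (by rw [h]))

/-- a maximal fooling family -/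
lemma exists_max_FK {K M : Set E} (hK : Convex ℝ K) (hKs : ∀ x ∈ K, -x ∈ K) (hM : Convex ℝ M)
    (hMs : ∀ x ∈ M, -x ∈ M) (hM0 : (0 : E) ∈ M) {δ R : ℝ} (hδ : 0 < δ) (hR : 16 ≤ δ * R)
    (hR1 : 2 ≤ R) (hc : Cov M (Lb K (δ / 16))) (j : ℕ) :
    ∃ S, FK K M δ (R ^ j) (R ^ (j + 1)) S ∧
      ∀ S', FK K M δ (R ^ j) (R ^ (j + 1)) S' → S'.card ≤ S.card := by
  classical
  have hRpos : 0 < R := by linarith
  have hRj : 1 ≤ R ^ j := one_le_pow₀ (by linarith)
  have hb : ∀ S, FK K M δ (R ^ j) (R ^ (j + 1)) S → S.card ≤ covN M (Lb K (δ / 16)) := by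
    intro S hS
    have hinj : Set.InjOn (fun p : E × E => p.2) (S : Finset (E × E)) := by
      intro p hp q hq heq
      by_contra hne
      have := hS.sep p hp q hq hne
      simp only at heq
      rw [heq, sub_self, inner_zero_right, abs_zero] at this
      have h2 : 0 < δ * R ^ j := by positivity
      linarith
    rw [← Finset.card_image_of_injOn hinj]
    have e : δ / 16 = (δ / 8) / 2 := by ring
    rw [e] at hc ⊢
    apply sep_card_le hKs hc
    · intro y hy
      rw [Finset.mem_image] at hy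
      obtain ⟨p, hp, rfl⟩ := hy
      exact (hS.mem p hp).2
    · intro z hz z' hz' hne
      rw [Finset.mem_image] at hz hz'
      obtain ⟨p, hp, rfl⟩ := hz
      obtain ⟨p', hp', rfl⟩ := hz'
      have h1 := hS.sep p hp p' hp' (fun h => hne (by rw [h]))
      have hmid : (1 / 2 : ℝ) • (p.1 - p'.1) ∈ K := by
        have := hK (hS.mem p hp).1 (hKs _ (hS.mem p' hp').1)
          (show (0 : ℝ) ≤ 1 / 2 by norm_num) (show (0 : ℝ) ≤ 1 / 2 by norm_num) (by norm_num)
        rw [smul_sub, sub_eq_add_neg, ← smul_neg]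
        exact this
      have h2 : δ ≤ δ * R ^ j := by nlinarith
      rcases lt_abs.1 h1 with h5 | h5
      · refine ⟨(1 / 2 : ℝ) • (p.1 - p'.1), hmid, ?_⟩
        rw [real_inner_smul_right, real_inner_comm]
        linarith
      · refine ⟨-((1 / 2 : ℝ) • (p.1 - p'.1)), hKs _ hmid, ?_⟩
        rw [inner_neg_right, real_inner_smul_right, real_inner_comm]
        linarith
  set T : Set ℕ := {m | ∃ S, FK K M δ (R ^ j) (R ^ (j + 1)) S ∧ S.card = m} with hT
  have hne : T.Nonempty := ⟨0, ∅, ⟨by simp, by simp, by simp⟩, by simp⟩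
  have hbdd : BddAbove T := ⟨covN M (Lb K (δ / 16)), by
    rintro m ⟨S, hS, rfl⟩
    exact hb S hS⟩
  obtain ⟨S, hS, hS2⟩ := Nat.sSup_mem hne hbdd
  refine ⟨S, hS, fun S' hS' => ?_⟩
  rw [hS2]
  exact le_csSup hbdd ⟨S', hS', rfl⟩

end Vale.Agent.P126
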