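import Vale.Agent.P126.Bodies

/-!
# The master inequality for bodies and its corollaries
-/

namespace Vale.Agent.P126

open Finset Filter Topology MeasureTheory
open scoped Pointwise

variable {E : Type*} [NormedAddCommGroup E] [InnerProductSpace ℝ E] [FiniteDimensional ℝ E]

lemma covN_pos {A B : Set E} (hA : A.Nonempty) (h : Cov A B) : 1 ≤ covN A B := by
  obtain ⟨F, h1, h2⟩ := exists_cover h
  obtain ⟨a, ha⟩ := hA
  obtain ⟨x, hx, _⟩ := h2 a ha
  rw [← h1]
  exact Finset.card_pos.2 ⟨x, hx⟩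

lemma body_smul_pol {K : Set E} (hK : Body K) {t : ℝ} (ht : 0 < t) : Body (t • pol K) := by
  rw [smul_pol K ht]
  exact hK.Lb ht

lemma pol_smul_pol {K : Set E} (hK : Body K) {a : ℝ} (ha : 0 < a) : pol (a • pol K) = a⁻¹ • K := by
  have h1 : pol (a • pol K) = Lb (pol K) a⁻¹ := by
    ext y
    unfold Lb
    simp only [Set.mem_ofPred_eq]
    constructor
    · intro h x hx
      have := h (a • x) (Set.smul_mem_smul_set hx)
      rw [real_inner_smul_left, real_inner_comm] at this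
      rw [← one_div, le_div_iff₀ ha]
      linarith
    · intro h z hz
      obtain ⟨x, hx, rfl⟩ := hz
      have := h x hx
      simp only
      rw [real_inner_smul_left, real_inner_comm]
      have h2 := mul_le_mul_of_nonneg_left this ha.le
      rwa [mul_inv_cancel₀ ha.ne'] at h2
  rw [h1, Lb_smul _ (inv_pos.2 ha), bipolar hK]

lemma pol_pol {K : Set E} (hK : Body K) : pol (pol K) = K := by
  rw [pol_eq_Lb]
  exact bipolar hK

omit [FiniteDimensional ℝ E] in
lemma covN_smul_le {A B : Set E} (h : Cov A B) {t : ℝ} : covN (t • A) (t • B) ≤ covN A B := by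
  classical
  obtain ⟨F, h1, h2⟩ := exists_cover h
  rw [← h1]
  refine (covN_le (F.image fun x => t • x) ?_).trans Finset.card_image_le
  intro z hz
  obtain ⟨a, ha, rfl⟩ := hz
  obtain ⟨x, hx, hx2⟩ := h2 a ha
  refine ⟨t • x, Finset.mem_image_of_mem _ hx, ?_⟩
  exact ⟨a - x, hx2, by simp only [smul_sub]⟩

/-- the master inequality for bodies -/
theorem master_bodies {K L : Set E} (hK : Body K) (hL : Body L) {α κ : ℝ} {T : ℕ} (hT : 0 < T)
    (hα : 0 < α) (hα1 : α ≤ 1) (hκ : 0 < κ)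
    (hcond : 256 * (128 * T / α) ^ 2 * (α ^ T * κ) ≤ 1)
    (hκ2 : Real.log (covN K L) ≤ κ ∨
      (Module.finrank ℝ E : ℝ) * Real.log (1 + 2 * (128 * T / α)) ≤ κ) :
    covN K L ≤ covN (pol L) ((α / (128 * T)) • pol K) ^ (2 * T) := by
  borelize E
  have hTr : (1 : ℝ) ≤ T := by exact_mod_cast hT
  have hM := hL.pol
  have hτ : 0 < α / (128 * T) := by positivity
  have hRpos : 0 < 128 * T / α := by positivity
  have hR1 : 1 < 128 * T / α := by
    rw [lt_div_iff₀ hα]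
    nlinarith
  have e1 : Lb (pol L) 1 = L := bipolar hL
  have e2 : (α / (128 * T)) • pol K = Lb K (α / (128 * T)) := smul_pol K hτ
  have := master (K := K) (M := pol L) hK.convex hK.symm hM.compact hM.convex hM.symm hM.zero
    hT hα hα1 hκ hcond (by rw [e1]; exact hK.cov hL) (hM.cov (hK.Lb hτ)) (by
      obtain ⟨r1, hr1, h1⟩ := hK.bdd
      obtain ⟨r2, hr2, h2⟩ := hM.bdd
      obtain ⟨J, hJ⟩ := pow_unbounded_of_one_lt (r1 * r2) hR1
      refine ⟨J, fun x hx y hy => ?_⟩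
      have a1 := real_inner_le_norm x y
      have a2 : ‖x‖ * ‖y‖ ≤ r1 * r2 :=
        mul_le_mul (h1 x hx) (h2 y hy) (norm_nonneg _) hr1.le
      linarith) (by
      intro s X c hs _ hsep hX hcard
      rw [e1] at hcard
      rcases Nat.eq_zero_or_pos X.card with h0 | h0
      · rw [h0]; simpa using hκ.le
      have hXpos : (0 : ℝ) < X.card := by exact_mod_cast h0
      rcases hκ2 with h | h
      · exact (Real.log_le_log hXpos (by exact_mod_cast hcard)).trans h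
      · have hv := vol_bound hM hRpos (by linarith) X c hsep hX
        have h3 := Real.log_le_log hXpos hv
        rw [Real.log_pow] at h3
        exact h3.trans h)
  rw [e1, ← e2] at this
  exact this

/-- upper inequality -/
theorem upper {K L : Set E} (hK : Body K) (hL : Body L) {α κ : ℝ} {T : ℕ} (hT : 0 < T)
    (hα : 0 < α) (hα1 : α ≤ 1) (hκ : 0 < κ)
    (hcond : 256 * (128 * T / α) ^ 2 * (α ^ T * κ) ≤ 1)
    (hκ2 : Real.log (covN K L) ≤ κ ∨
      (Module.finrank ℝ E : ℝ) * Real.log (1 + 2 * (128 * T / α)) ≤ κ) {a b : ℝ}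
    (ha : 128 * T / α ≤ a) (hb : 2 * (T : ℝ) ≤ b) :
    Real.log (covN K L) ≤ b * Real.log (covN (pol L) (a⁻¹ • pol K)) := by
  have hTr : (1 : ℝ) ≤ T := by exact_mod_cast hT
  have hRpos : 0 < 128 * T / α := by positivity
  have hapos : 0 < a := hRpos.trans_le ha
  have h1 := master_bodies hK hL hT hα hα1 hκ hcond hκ2
  have h2 : covN (pol L) ((α / (128 * T)) • pol K) ≤ covN (pol L) (a⁻¹ • pol K) := by
    apply covN_anti
    · rw [smul_pol K (inv_pos.2 hapos), smul_pol K (by positivity)]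
      apply Lb_mono
      rw [inv_le_comm₀ hapos (by positivity)]
      rwa [inv_div]
    · exact hL.pol.cov (body_smul_pol hK (inv_pos.2 hapos))
  have h3 : 1 ≤ covN (pol L) (a⁻¹ • pol K) :=
    covN_pos ⟨0, hL.pol.zero⟩ (hL.pol.cov (body_smul_pol hK (inv_pos.2 hapos)))
  have h4 : 1 ≤ covN K L := covN_pos ⟨0, hK.zero⟩ (hK.cov hL)
  have h5 : covN K L ≤ covN (pol L) (a⁻¹ • pol K) ^ (2 * T) :=
    h1.trans (Nat.pow_le_pow_left h2 _)
  have h6 : Real.log (covN K L) ≤ Real.log ((covN (pol L) (a⁻¹ • pol K) : ℝ) ^ (2 * T)) :=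
    Real.log_le_log (by exact_mod_cast h4) (by exact_mod_cast h5)
  rw [Real.log_pow] at h6
  push_cast at h6
  have h7 : 0 ≤ Real.log (covN (pol L) (a⁻¹ • pol K)) :=
    Real.log_nonneg (by exact_mod_cast h3)
  exact h6.trans (mul_le_mul_of_nonneg_right hb h7)

/-- lower inequality -/
theorem lower {K L : Set E} (hK : Body K) (hL : Body L) {α κ : ℝ} {T : ℕ} (hT : 0 < T)
    (hα : 0 < α) (hα1 : α ≤ 1) (hκ : 0 < κ)
    (hcond : 256 * (128 * T / α) ^ 2 * (α ^ T * κ) ≤ 1)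
    (hκ2 : Real.log (covN (pol L) (pol K)) ≤ κ ∨
      (Module.finrank ℝ E : ℝ) * Real.log (1 + 2 * (128 * T / α)) ≤ κ) {a b : ℝ}
    (ha : 128 * T / α ≤ a) (hb : 2 * (T : ℝ) ≤ b) :
    Real.log (covN (pol L) (a • pol K)) ≤ b * Real.log (covN K L) := by
  have hTr : (1 : ℝ) ≤ T := by exact_mod_cast hT
  set r := 128 * T / α with hr
  have hrpos : 0 < r := by positivity
  have hr1 : 1 ≤ r := by
    rw [hr, le_div_iff₀ hα]
    nlinarith
  have hapos : 0 < a := hrpos.trans_le ha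
  have hrK := body_smul_pol hK hrpos
  have h1 := master_bodies hL.pol hrK hT hα hα1 hκ hcond (by
    rcases hκ2 with h | h
    · left
      refine le_trans ?_ h
      apply Real.log_le_log
      · have := covN_pos ⟨0, hL.pol.zero⟩ (hL.pol.cov hrK)
        exact_mod_cast this
      · have : covN (pol L) (r • pol K) ≤ covN (pol L) (pol K) := by
          apply covN_anti _ (hL.pol.cov hK.pol)
          rw [smul_pol K hrpos, pol_eq_Lb]
          exact Lb_mono K hr1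
        exact_mod_cast this
    · exact Or.inr h)
  have e1 : α / (128 * T) = r⁻¹ := by rw [hr, inv_div]
  rw [pol_smul_pol hK hrpos, e1, pol_pol hL] at h1
  have h2 : covN (r⁻¹ • K) (r⁻¹ • L) ≤ covN K L := covN_smul_le (hK.cov hL)
  have h3 : covN (pol L) (a • pol K) ≤ covN (pol L) (r • pol K) := by
    apply covN_anti _ (hL.pol.cov hrK)
    rw [smul_pol K hrpos, smul_pol K hapos]
    exact Lb_mono K ha
  have h4 : 1 ≤ covN (pol L) (a • pol K) :=
    covN_pos ⟨0, hL.pol.zero⟩ (hL.pol.cov (body_smul_pol hK hapos))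
  have h5 : covN (pol L) (a • pol K) ≤ covN K L ^ (2 * T) :=
    (h3.trans h1).trans (Nat.pow_le_pow_left h2 _)
  have h6 : Real.log (covN (pol L) (a • pol K)) ≤ Real.log ((covN K L : ℝ) ^ (2 * T)) :=
    Real.log_le_log (by exact_mod_cast h4) (by exact_mod_cast h5)
  rw [Real.log_pow] at h6
  push_cast at h6
  have h7 : 0 ≤ Real.log (covN K L) :=
    Real.log_nonneg (by exact_mod_cast covN_pos ⟨0, hK.zero⟩ (hK.cov hL))
  exact h6.trans (mul_le_mul_of_nonneg_right hb h7)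

/-! ### numerical choices -/

lemma T_le (m : ℕ) : 100 + 10 * m ≤ 2 ^ (7 + m) := by
  induction m with
  | zero => norm_num
  | succ m ih =>
    have : 2 ^ (7 + (m + 1)) = 2 * 2 ^ (7 + m) := by ring
    rw [this]
    omega

lemma num1 (m : ℕ) {κ : ℝ} (hκ : κ ≤ 512 * ((100 + 10 * m : ℕ) : ℝ) * 2 ^ m) :
    256 * (128 * ((100 + 10 * m : ℕ) : ℝ) / (1 / 2)) ^ 2
      * ((1 / 2 : ℝ) ^ (100 + 10 * m) * κ) ≤ 1 := by
  set T : ℕ := 100 + 10 * m with hT
  have h1 : (T : ℝ) ≤ 2 ^ (7 + m) := by exact_mod_cast T_le m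
  have h0 : (0 : ℝ) ≤ T := Nat.cast_nonneg T
  have h2 : (2 : ℝ) ^ T = 2 ^ (54 + 4 * m) * 2 ^ (46 + 6 * m) := by
    rw [← pow_add]; congr 1; omega
  have h3 : (1 : ℝ) ≤ 2 ^ (46 + 6 * m) := one_le_pow₀ (by norm_num)
  have h4 : (T : ℝ) ^ 3 ≤ 2 ^ (21 + 3 * m) := by
    calc (T : ℝ) ^ 3 ≤ (2 ^ (7 + m)) ^ 3 := pow_le_pow_left₀ h0 h1 3
      _ = 2 ^ (21 + 3 * m) := by rw [← pow_mul]; congr 1; ring
  have h5 : 2 ^ 33 * (T : ℝ) ^ 3 * 2 ^ m ≤ (2 : ℝ) ^ T := by
    have e : (2 : ℝ) ^ 33 * 2 ^ (21 + 3 * m) * 2 ^ m = 2 ^ (54 + 4 * m) := by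
      rw [← pow_add, ← pow_add]; congr 1; ring
    have h6 : (2 : ℝ) ^ 33 * (T : ℝ) ^ 3 * 2 ^ m ≤ 2 ^ 33 * 2 ^ (21 + 3 * m) * 2 ^ m := by
      gcongr
    rw [e] at h6
    rw [h2]
    have : (0 : ℝ) < 2 ^ (54 + 4 * m) := by positivity
    nlinarith
  have h6 : 256 * (128 * (T : ℝ) / (1 / 2)) ^ 2 * ((1 / 2 : ℝ) ^ T * κ)
      ≤ 256 * (128 * (T : ℝ) / (1 / 2)) ^ 2 * ((1 / 2 : ℝ) ^ T * (512 * (T : ℝ) * 2 ^ m)) := by
    gcongr
  refine h6.trans ?_
  have h7 : 256 * (128 * (T : ℝ) / (1 / 2)) ^ 2 * ((1 / 2 : ℝ) ^ T * (512 * (T : ℝ) * 2 ^ m))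
      = (2 ^ 33 * (T : ℝ) ^ 3 * 2 ^ m) / 2 ^ T := by
    rw [one_div_pow]
    field_simp
    ring
  rw [h7, div_le_one (by positivity)]
  exact h5

end Vale.Agent.P126
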