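import Vale.Agent.P126.Final

/-!
# Duality of metric entropy: the four forms
-/

namespace Vale.Agent.P126

open Finset Filter Topology MeasureTheory
open scoped Pointwise

lemma exists_m {x : ℝ} (hx : 1 ≤ x) : ∃ m : ℕ, x ≤ 2 ^ m ∧ (m : ℝ) ≤ 1 + 3 / 2 * Real.log x := by
  have h2 : 0 < Real.log 2 := Real.log_pos (by norm_num)
  have h2' : (2 / 3 : ℝ) < Real.log 2 := by
    have := Real.log_two_gt_d9
    norm_num at this ⊢
    linarith
  have hlx : 0 ≤ Real.log x := Real.log_nonneg hx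
  refine ⟨⌈Real.log x / Real.log 2⌉₊, ?_, ?_⟩
  · have h1 := Nat.le_ceil (Real.log x / Real.log 2)
    rw [div_le_iff₀ h2, ← Real.log_pow] at h1
    exact (Real.log_le_log_iff (by linarith) (by positivity)).1 h1
  · have h1 := Nat.ceil_lt_add_one (div_nonneg hlx h2.le)
    have h3 : Real.log x / Real.log 2 ≤ 3 / 2 * Real.log x := by
      rw [div_le_iff₀ h2]
      nlinarith
    linarith

theorem dim_log : ∃ C : ℝ, 0 < C ∧ ∀ (n : ℕ), 1 ≤ n →
    ∀ K L : Set (EuclideanSpace ℝ (Fin n)), Body K → Body L →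
      Real.log (covN K L) ≤ (C * Real.log (n + 1))
        * Real.log (covN (pol L) ((C * Real.log (n + 1))⁻¹ • pol K)) ∧
      (C * Real.log (n + 1))⁻¹ * Real.log (covN (pol L) ((C * Real.log (n + 1)) • pol K))
        ≤ Real.log (covN K L) := by
  refine ⟨100000, by norm_num, ?_⟩
  intro n hn K L hK hL
  have hn1 : (1 : ℝ) ≤ n := by exact_mod_cast hn
  obtain ⟨m, hm1, hm2⟩ := exists_m (show (1 : ℝ) ≤ n by exact hn1)
  have h2' : (2 / 3 : ℝ) < Real.log 2 := by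
    have := Real.log_two_gt_d9
    norm_num at this ⊢
    linarith
  have hl1 : Real.log 2 ≤ Real.log (n + 1) := Real.log_le_log (by norm_num) (by linarith)
  have hl2 : Real.log n ≤ Real.log (n + 1) := Real.log_le_log (by linarith) (by linarith)
  set l := Real.log ((n : ℝ) + 1) with hl
  set T : ℕ := 100 + 10 * m with hT
  have hTr : (T : ℝ) = 100 + 10 * m := by rw [hT]; push_cast; ring
  have hT1 : 1 ≤ (T : ℝ) := by
    rw [hTr]
    have : (0 : ℝ) ≤ m := Nat.cast_nonneg m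
    linarith
  have hTl : 256 * (T : ℝ) ≤ 100000 * l := by
    rw [hTr]
    linarith
  have hlpos : 0 < l := by linarith
  have hκ : (0 : ℝ) < n * (512 * T) := by positivity
  have hcond := num1 m (κ := n * (512 * T)) (by
    have : (n : ℝ) * (512 * T) = 512 * T * n := by ring
    rw [this]
    exact mul_le_mul_of_nonneg_left hm1 (by positivity))
  have hfr : (Module.finrank ℝ (EuclideanSpace ℝ (Fin n)) : ℝ)
      * Real.log (1 + 2 * (128 * T / (1 / 2))) ≤ n * (512 * T) := by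
    rw [finrank_euclideanSpace_fin]
    apply mul_le_mul_of_nonneg_left _ (by linarith)
    have h1 := Real.log_le_sub_one_of_pos (show (0 : ℝ) < 1 + 2 * (128 * T / (1 / 2)) by positivity)
    linarith
  have ha : 128 * (T : ℝ) / (1 / 2) ≤ 100000 * l := by linarith
  have hb : 2 * (T : ℝ) ≤ 100000 * l := by linarith
  refine ⟨upper hK hL (α := 1 / 2) (T := T) (by omega) (by norm_num) (by norm_num) hκ hcond
    (Or.inr hfr) ha hb, ?_⟩
  have h3 := lower hK hL (α := 1 / 2) (T := T) (by omega) (by norm_num) (by norm_num) hκ hcond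
    (Or.inr hfr) ha hb
  rw [inv_mul_le_iff₀ (by positivity)]
  exact h3

theorem free_log : ∃ C : ℝ, 0 < C ∧ ∀ (n : ℕ) (K L : Set (EuclideanSpace ℝ (Fin n))),
    Body K → Body L →
      (∀ a : ℝ, a = C * (1 + Real.log (1 + Real.log (covN K L))) →
        Real.log (covN K L) ≤ a * Real.log (covN (pol L) (a⁻¹ • pol K))) ∧
      (∀ a : ℝ, a = C * (1 + Real.log (1 + Real.log (covN (pol L) (pol K)))) →
        a⁻¹ * Real.log (covN (pol L) (a • pol K)) ≤ Real.log (covN K L)) := by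
  refine ⟨100000, by norm_num, ?_⟩
  intro n K L hK hL
  have key : ∀ k : ℝ, 0 ≤ k → ∃ T : ℕ, 0 < T ∧
      256 * (128 * (T : ℝ) / (1 / 2)) ^ 2 * ((1 / 2 : ℝ) ^ T * (1 + k)) ≤ 1 ∧
      256 * (T : ℝ) ≤ 100000 * (1 + Real.log (1 + k)) := by
    intro k hk
    obtain ⟨m, hm1, hm2⟩ := exists_m (show (1 : ℝ) ≤ 1 + k by linarith)
    have hm0 : (0 : ℝ) ≤ m := Nat.cast_nonneg m
    have hlog : 0 ≤ Real.log (1 + k) := Real.log_nonneg (by linarith)
    refine ⟨100 + 10 * m, by omega, ?_, ?_⟩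
    · apply num1 m
      have h1 : (1 : ℝ) ≤ 512 * ((100 + 10 * m : ℕ) : ℝ) := by
        push_cast
        linarith
      have h2 : (0 : ℝ) ≤ 2 ^ m := by positivity
      nlinarith
    · push_cast
      linarith
  constructor
  · rintro a rfl
    have hk : 0 ≤ Real.log (covN K L) :=
      Real.log_nonneg (by exact_mod_cast covN_pos ⟨0, hK.zero⟩ (hK.cov hL))
    obtain ⟨T, hT0, hT1, hT2⟩ := key _ hk
    have hTr : (0 : ℝ) < T := by exact_mod_cast hT0
    exact upper hK hL (α := 1 / 2) hT0 (by norm_num) (by norm_num) (by linarith) hT1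
      (Or.inl (by linarith)) (by linarith) (by linarith)
  · rintro a rfl
    have hk : 0 ≤ Real.log (covN (pol L) (pol K)) :=
      Real.log_nonneg (by exact_mod_cast covN_pos ⟨0, hL.pol.zero⟩ (hL.pol.cov hK.pol))
    obtain ⟨T, hT0, hT1, hT2⟩ := key _ hk
    have hTr : (0 : ℝ) < T := by exact_mod_cast hT0
    have h3 := lower hK hL (α := 1 / 2) hT0 (by norm_num) (by norm_num) (by linarith) hT1
      (Or.inl (by linarith))
      (a := 100000 * (1 + Real.log (1 + Real.log (covN (pol L) (pol K)))))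
      (b := 100000 * (1 + Real.log (1 + Real.log (covN (pol L) (pol K)))))
      (by linarith) (by linarith)
    rw [inv_mul_le_iff₀ (by
      have := Real.log_nonneg (show (1 : ℝ) ≤ 1 + Real.log (covN (pol L) (pol K)) by linarith)
      positivity)]
    exact h3

lemma alpha_facts {x : ℝ} (hx : 1 ≤ x) {p : ℕ} (hp : 0 < p) :
    0 < x ^ (-(1 / (p : ℝ))) ∧ x ^ (-(1 / (p : ℝ))) ≤ 1 ∧ (x ^ (-(1 / (p : ℝ)))) ^ p = x⁻¹ := by
  have hpr : (0 : ℝ) < p := by exact_mod_cast hp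
  refine ⟨by positivity, ?_, ?_⟩
  · apply Real.rpow_le_one_of_one_le_of_nonpos hx
    have : 0 ≤ 1 / (p : ℝ) := by positivity
    linarith
  · rw [← Real.rpow_natCast, ← Real.rpow_mul (by linarith)]
    have : -(1 / (p : ℝ)) * p = -1 := by field_simp
    rw [this, Real.rpow_neg_one]

lemma scale_bound {A y ε : ℝ} (hA : 1 ≤ A) (hy : 1 ≤ y) {p : ℕ} (hp : 0 < p)
    (hpε : 1 / (p : ℝ) ≤ ε) (B : ℝ) (hB : 0 ≤ B) :
    B / (A * y) ^ (-(1 / (p : ℝ))) ≤ (B * A ^ (1 / (p : ℝ))) * y ^ ε := by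
  have h1 : B / (A * y) ^ (-(1 / (p : ℝ))) = (B * A ^ (1 / (p : ℝ))) * y ^ (1 / (p : ℝ)) := by
    rw [Real.rpow_neg (by positivity), Real.mul_rpow (by linarith) (by linarith)]
    rw [div_inv_eq_mul]
    ring
  rw [h1]
  apply mul_le_mul_of_nonneg_left _ (by positivity)
  exact Real.rpow_le_rpow_of_exponent_le hy hpε

theorem dim_pow (ε : ℝ) (hε : 0 < ε) : ∃ b C : ℝ, 0 < b ∧ 0 < C ∧ ∀ (n : ℕ), 1 ≤ n →
    ∀ K L : Set (EuclideanSpace ℝ (Fin n)), Body K → Body L →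
      Real.log (covN K L) ≤ b * Real.log (covN (pol L) ((C * (n : ℝ) ^ ε)⁻¹ • pol K)) ∧
      b⁻¹ * Real.log (covN (pol L) ((C * (n : ℝ) ^ ε) • pol K)) ≤ Real.log (covN K L) := by
  obtain ⟨p, hp⟩ := exists_nat_gt (1 / ε)
  have hppos : 0 < p := by
    have : (0 : ℝ) < p := lt_trans (by positivity) hp
    exact_mod_cast this
  have hpr : (0 : ℝ) < p := by exact_mod_cast hppos
  have hpε : 1 / (p : ℝ) ≤ ε := by
    rw [div_le_iff₀ hpr]
    rw [div_lt_iff₀ hε] at hp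
    linarith
  set T : ℕ := p + 3 with hT
  have hT0 : 0 < T := by omega
  have hTr : (1 : ℝ) ≤ T := by exact_mod_cast hT0
  set A : ℝ := 2 ^ 30 * T ^ 3 with hA
  have hA1 : 1 ≤ A := by
    rw [hA]
    have h1 : (1 : ℝ) ≤ (T : ℝ) ^ 3 := one_le_pow₀ hTr
    nlinarith
  refine ⟨2 * T, 128 * T * A ^ (1 / (p : ℝ)), by positivity, by positivity, ?_⟩
  intro n hn K L hK hL
  have hn1 : (1 : ℝ) ≤ n := by exact_mod_cast hn
  set x : ℝ := A * n with hx
  have hx1 : 1 ≤ x := by rw [hx]; nlinarith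
  obtain ⟨hα, hα1, hαp⟩ := alpha_facts hx1 hppos
  set α : ℝ := x ^ (-(1 / (p : ℝ))) with hαdef
  have hκ : (0 : ℝ) < n * (256 * T / α) := by positivity
  have hcond : 256 * (128 * (T : ℝ) / α) ^ 2 * (α ^ T * (n * (256 * T / α))) ≤ 1 := by
    have e : 256 * (128 * (T : ℝ) / α) ^ 2 * (α ^ T * (n * (256 * T / α)))
        = (2 ^ 30 * T ^ 3 * n) * (α ^ T / α ^ 3) := by
      field_simp
      ring
    have e2 : α ^ T / α ^ 3 = α ^ p := by
      rw [hT, pow_add]
      field_simp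
    rw [e, e2, hαp, ← hA, ← hx, mul_inv_cancel₀ (by linarith)]
  have hfr : (Module.finrank ℝ (EuclideanSpace ℝ (Fin n)) : ℝ)
      * Real.log (1 + 2 * (128 * T / α)) ≤ n * (256 * T / α) := by
    rw [finrank_euclideanSpace_fin]
    apply mul_le_mul_of_nonneg_left _ (by linarith)
    have h1 := Real.log_le_sub_one_of_pos (show (0 : ℝ) < 1 + 2 * (128 * T / α) by positivity)
    refine h1.trans (le_of_eq ?_)
    ring
  have ha : 128 * (T : ℝ) / α ≤ 128 * T * A ^ (1 / (p : ℝ)) * (n : ℝ) ^ ε :=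
    scale_bound hA1 hn1 hppos hpε (128 * T) (by positivity)
  refine ⟨upper hK hL hT0 hα hα1 hκ hcond (Or.inr hfr) ha le_rfl, ?_⟩
  have h3 := lower hK hL hT0 hα hα1 hκ hcond (Or.inr hfr) ha le_rfl
  rw [inv_mul_le_iff₀ (by positivity)]
  exact h3

theorem free_pow (ε : ℝ) (hε : 0 < ε) : ∃ b C : ℝ, 0 < b ∧ 0 < C ∧
    ∀ (n : ℕ) (K L : Set (EuclideanSpace ℝ (Fin n))), Body K → Body L →
      (∀ a : ℝ, a = C * (1 + Real.log (covN K L)) ^ ε →
        Real.log (covN K L) ≤ b * Real.log (covN (pol L) (a⁻¹ • pol K))) ∧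
      (∀ a : ℝ, a = C * (1 + Real.log (covN (pol L) (pol K))) ^ ε →
        b⁻¹ * Real.log (covN (pol L) (a • pol K)) ≤ Real.log (covN K L)) := by
  obtain ⟨p, hp⟩ := exists_nat_gt (1 / ε)
  have hppos : 0 < p := by
    have : (0 : ℝ) < p := lt_trans (by positivity) hp
    exact_mod_cast this
  have hpr : (0 : ℝ) < p := by exact_mod_cast hppos
  have hpε : 1 / (p : ℝ) ≤ ε := by
    rw [div_le_iff₀ hpr]
    rw [div_lt_iff₀ hε] at hp
    linarith
  set T : ℕ := p + 2 with hT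
  have hT0 : 0 < T := by omega
  have hTr : (1 : ℝ) ≤ T := by exact_mod_cast hT0
  set A : ℝ := 2 ^ 22 * T ^ 2 with hA
  have hA1 : 1 ≤ A := by
    rw [hA]
    have h1 : (1 : ℝ) ≤ (T : ℝ) ^ 2 := one_le_pow₀ hTr
    nlinarith
  refine ⟨2 * T, 128 * T * A ^ (1 / (p : ℝ)), by positivity, by positivity, ?_⟩
  intro n K L hK hL
  have key : ∀ k : ℝ, 0 ≤ k → ∃ α : ℝ, 0 < α ∧ α ≤ 1 ∧
      256 * (128 * (T : ℝ) / α) ^ 2 * (α ^ T * (1 + k)) ≤ 1 ∧
      128 * (T : ℝ) / α ≤ 128 * T * A ^ (1 / (p : ℝ)) * (1 + k) ^ ε := by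
    intro k hk
    have hy : (1 : ℝ) ≤ 1 + k := by linarith
    have hx1 : 1 ≤ A * (1 + k) := by nlinarith
    obtain ⟨hα, hα1, hαp⟩ := alpha_facts hx1 hppos
    refine ⟨(A * (1 + k)) ^ (-(1 / (p : ℝ))), hα, hα1, ?_,
      scale_bound hA1 hy hppos hpε (128 * T) (by positivity)⟩
    set α : ℝ := (A * (1 + k)) ^ (-(1 / (p : ℝ))) with hαdef
    have e : 256 * (128 * (T : ℝ) / α) ^ 2 * (α ^ T * (1 + k))
        = (2 ^ 22 * T ^ 2 * (1 + k)) * (α ^ T / α ^ 2) := by
      field_simp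
      ring
    have e2 : α ^ T / α ^ 2 = α ^ p := by
      rw [hT, pow_add]
      field_simp
    rw [e, e2, hαp, ← hA, mul_inv_cancel₀ (by linarith)]
  constructor
  · rintro a rfl
    have hk : 0 ≤ Real.log (covN K L) :=
      Real.log_nonneg (by exact_mod_cast covN_pos ⟨0, hK.zero⟩ (hK.cov hL))
    obtain ⟨α, h1, h2, h3, h4⟩ := key _ hk
    exact upper hK hL hT0 h1 h2 (by linarith) h3 (Or.inl (by linarith)) h4 le_rfl
  · rintro a rfl
    have hk : 0 ≤ Real.log (covN (pol L) (pol K)) :=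
      Real.log_nonneg (by exact_mod_cast covN_pos ⟨0, hL.pol.zero⟩ (hL.pol.cov hK.pol))
    obtain ⟨α, h1, h2, h3, h4⟩ := key _ hk
    have h5 := lower hK hL hT0 h1 h2 (by linarith) h3 (Or.inl (by linarith)) h4 le_rfl
    rw [inv_mul_le_iff₀ (by positivity)]
    exact h5

end Vale.Agent.P126
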