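import Vale.Agent.P126.Cover

/-!
# The master inequality
-/

namespace Vale.Agent.P126

open Finset Filter Topology

variable {E : Type*} [NormedAddCommGroup E] [InnerProductSpace ℝ E]

/-- one scale: `N_s ≤ N_{Rs} F^T` -/
lemma one_scale {K M : Set E} (hK : Convex ℝ K) (hMc : IsCompact M) (hM : Convex ℝ M)
    (hMs : ∀ x ∈ M, -x ∈ M) (hM0 : (0 : E) ∈ M) {α κ : ℝ} {T : ℕ} (hT : 0 < T) (hα : 0 < α)
    (hκ : 0 < κ) {R s : ℝ} (hR : 0 < R) (hs : 0 < s)
    (hcond : 256 * R ^ 2 * (α ^ T * κ) ≤ 1) (hcov : Cov K (Lb M (R * s)))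
    {F : ℕ} (hF : ∀ S, FK K M (α / (8 * T)) s (R * s) S → S.card ≤ F)
    (hκ2 : ∀ (X : Finset E) (c : E), (∀ x ∈ X, x ∈ K) → Sep M s X →
      (∀ x ∈ X, x - c ∈ Lb M (R * s)) → X.card ≤ covN K (Lb M s) → Real.log X.card ≤ κ) :
    covN K (Lb M s) ≤ covN K (Lb M (R * s)) * F ^ T := by
  classical
  obtain ⟨X, hX1, hX2, hX3⟩ := exists_sep (K := K) hMs hs.le (covN K (Lb M s)) le_rfl
  obtain ⟨C, hC1, hC2⟩ := exists_cover hcov
  rw [← hX1, ← hC1]
  have h3 : ∀ x, ∃ c, x ∈ X → c ∈ C ∧ x - c ∈ Lb M (R * s) := by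
    intro x
    by_cases hx : x ∈ X
    · obtain ⟨c, hc, hc2⟩ := hC2 x (hX2 x hx)
      exact ⟨c, fun _ => ⟨hc, hc2⟩⟩
    · exact ⟨0, fun h => absurd h hx⟩
  choose c hc using h3
  rw [Finset.card_eq_sum_card_fiberwise (fun x hx => (hc x hx).1)]
  have hpiece : ∀ b ∈ C, (X.filter fun x => c x = b).card ≤ F ^ T := by
    intro b _
    set Xb := X.filter fun x => c x = b with hXb
    rcases Finset.eq_empty_or_nonempty Xb with hemp | hne
    · rw [hemp]; simp
    have hsub : ∀ x ∈ Xb, x ∈ X ∧ c x = b := fun x hx => by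
      rw [hXb, Finset.mem_filter] at hx; exact hx
    have hLb : ∀ x ∈ Xb, x - b ∈ Lb M (R * s) := by
      intro x hx
      have := (hc x (hsub x hx).1).2
      rwa [(hsub x hx).2] at this
    have hne' : Nonempty Xb := by
      obtain ⟨x, hx⟩ := hne
      exact ⟨⟨x, hx⟩⟩
    have hcore := core hMc hM hMs hM0 (fun i : Xb => s⁻¹ • (i : E)) (R := R) (F := F) (T := T)
      (α := α) (κ := κ) (by
        intro i j hij
        obtain ⟨y, hy, hy2⟩ := hX3 i (hsub _ i.2).1 j (hsub _ j.2).1 (fun h => hij (Subtype.ext h))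
        refine ⟨y, hy, ?_⟩
        rw [← smul_sub, real_inner_smul_left, ← div_eq_inv_mul, lt_div_iff₀ hs, one_mul]
        exact hy2) hR (by
        intro i j y hy
        rw [← smul_sub, real_inner_smul_left, ← div_eq_inv_mul, div_le_iff₀ hs]
        have a1 := hLb i i.2 y hy
        have a2 := hLb j j.2 (-y) (hMs y hy)
        rw [inner_neg_right] at a2
        rw [inner_sub_left] at a1 a2 ⊢
        linarith) hT hα hκ (by
        rw [Fintype.card_coe]
        apply hκ2 Xb b (fun x hx => hX2 x (hsub x hx).1)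
          (fun x hx x' hx' h => hX3 x (hsub x hx).1 x' (hsub x' hx').1 h) hLb
        rw [← hX1]
        exact Finset.card_le_card (Finset.filter_subset _ _)) (by
        intro S hS
        -- rescale the fooling family
        have hconv : ∀ z ∈ convexHull ℝ (Set.range fun i : Xb => s⁻¹ • (i : E)),
            s • z ∈ K ∧ s • z - b ∈ Lb M (R * s) := by
          intro z hz
          have hcv : Convex ℝ {z : E | s • z ∈ K ∧ s • z - b ∈ Lb M (R * s)} := by
            intro z1 h1 z2 h2 a1 a2 ha1 ha2 ha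
            refine ⟨?_, ?_⟩
            · have := hK h1.1 h2.1 ha1 ha2 ha
              rw [smul_add, smul_comm s a1, smul_comm s a2]
              exact this
            · intro y hy
              have e : s • (a1 • z1 + a2 • z2) - b = a1 • (s • z1 - b) + a2 • (s • z2 - b) := by
                rw [smul_add, smul_comm s a1, smul_comm s a2, smul_sub, smul_sub]
                have : b = a1 • b + a2 • b := by rw [← add_smul, ha, one_smul]
                nth_rewrite 1 [this]
                abel
              rw [e, inner_add_left, real_inner_smul_left, real_inner_smul_left]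
              have b1 := mul_le_mul_of_nonneg_left (h1.2 y hy) ha1
              have b2 := mul_le_mul_of_nonneg_left (h2.2 y hy) ha2
              have b3 : a1 * (R * s) + a2 * (R * s) = R * s := by rw [← add_mul, ha, one_mul]
              linarith
          have := convexHull_min (s := Set.range fun i : Xb => s⁻¹ • (i : E))
            (t := {z : E | s • z ∈ K ∧ s • z - b ∈ Lb M (R * s)}) (by
              rintro _ ⟨i, rfl⟩
              simp only [Set.mem_ofPred_eq, smul_smul, mul_inv_cancel₀ hs.ne', one_smul]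
              exact ⟨hX2 _ (hsub _ i.2).1, hLb _ i.2⟩) hcv
          exact this hz
        set g : E × E → E × E := fun p => (s • p.1, p.2) with hg
        have hginj : Function.Injective g := by
          intro p q h
          simp only [hg, Prod.mk.injEq] at h
          have h1 := smul_right_injective E hs.ne' h.1
          exact Prod.ext h1 h.2
        rw [← Finset.card_image_of_injective S hginj]
        apply hF
        refine ⟨?_, ?_, ?_⟩
        · intro p hp
          rw [Finset.mem_image] at hp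
          obtain ⟨p, hp, rfl⟩ := hp
          exact ⟨(hconv _ (hS.1 p hp).1).1, (hS.1 p hp).2⟩
        · intro p hp p' hp' hne
          rw [Finset.mem_image] at hp hp'
          obtain ⟨p, hp, rfl⟩ := hp
          obtain ⟨p', hp', rfl⟩ := hp'
          have h1 := hS.2 p hp p' hp' (fun h => hne (by rw [h]))
          simp only [hg]
          rw [← smul_sub, real_inner_smul_left, abs_mul, abs_of_pos hs, mul_comm]
          exact mul_lt_mul_of_pos_left h1 hs
        · intro p hp p' hp' y hy
          rw [Finset.mem_image] at hp hp'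
          obtain ⟨p, hp, rfl⟩ := hp
          obtain ⟨p', hp', rfl⟩ := hp'
          have a1 := (hconv _ (hS.1 p hp).1).2 y hy
          have a2 := (hconv _ (hS.1 p' hp').1).2 (-y) (hMs y hy)
          rw [inner_neg_right] at a2
          simp only [hg]
          rw [inner_sub_left] at a1 a2 ⊢
          linarith) hcond
    rw [Fintype.card_coe] at hcore
    exact hcore
  refine (Finset.sum_le_sum hpiece).trans ?_
  rw [Finset.sum_const, smul_eq_mul]

/-- product over even and odd indices -/
lemma prod_even_odd (f : ℕ → ℕ) (m : ℕ) : ∏ j ∈ Finset.range (2 * m), f j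
    = (∏ i ∈ Finset.range m, f (0 + 2 * i)) * ∏ i ∈ Finset.range m, f (1 + 2 * i) := by
  induction m with
  | zero => simp
  | succ m ih =>
    rw [show 2 * (m + 1) = 2 * m + 1 + 1 by ring, Finset.prod_range_succ, Finset.prod_range_succ,
      ih, Finset.prod_range_succ, Finset.prod_range_succ]
    rw [show 0 + 2 * m = 2 * m by ring, show 1 + 2 * m = 2 * m + 1 by ring]
    ring

/-- the master inequality -/
theorem master {K M : Set E} (hK : Convex ℝ K) (hKs : ∀ x ∈ K, -x ∈ K) (hMc : IsCompact M)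
    (hM : Convex ℝ M) (hMs : ∀ x ∈ M, -x ∈ M) (hM0 : (0 : E) ∈ M) {α κ : ℝ} {T : ℕ} (hT : 0 < T)
    (hα : 0 < α) (hα1 : α ≤ 1) (hκ : 0 < κ)
    (hcond : 256 * (128 * T / α) ^ 2 * (α ^ T * κ) ≤ 1)
    (hcK : Cov K (Lb M 1)) (hcM : Cov M (Lb K (α / (128 * T))))
    (hbig : ∃ J : ℕ, ∀ x ∈ K, x ∈ Lb M ((128 * T / α) ^ J))
    (hκ2 : ∀ (s : ℝ) (X : Finset E) (c : E), 1 ≤ s → (∀ x ∈ X, x ∈ K) → Sep M s X →
      (∀ x ∈ X, x - c ∈ Lb M ((128 * T / α) * s)) → X.card ≤ covN K (Lb M 1) →
      Real.log X.card ≤ κ) :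
    covN K (Lb M 1) ≤ covN M (Lb K (α / (128 * T))) ^ (2 * T) := by
  classical
  have hTr : (1 : ℝ) ≤ T := by exact_mod_cast hT
  set R : ℝ := 128 * T / α with hR
  set δ : ℝ := α / (8 * T) with hδ
  have hδpos : 0 < δ := by positivity
  have hRδ : 16 ≤ δ * R := by
    rw [hR, hδ]
    have : α / (8 * T) * (128 * T / α) = 16 := by field_simp; norm_num
    rw [this]
  have hR1 : 2 ≤ R := by
    rw [hR, le_div_iff₀ hα]
    nlinarith
  have hRpos : 0 < R := by linarith
  have hδ16 : α / (128 * T) = δ / 16 := by rw [hδ]; field_simp; norm_num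
  rw [hδ16] at hcM ⊢
  choose S hS hSmax using fun j => exists_max_FK (R := R) hK hKs hM hMs hM0 hδpos hRδ hR1 hcM j
  obtain ⟨J, hJ⟩ := hbig
  have hRj : ∀ j : ℕ, 1 ≤ R ^ j := fun j => one_le_pow₀ (by linarith)
  have hcovj : ∀ j : ℕ, Cov K (Lb M (R ^ j)) := fun j => hcK.mono (Lb_mono M (hRj j))
  have hNj : ∀ j : ℕ, covN K (Lb M (R ^ j)) ≤ covN K (Lb M 1) :=
    fun j => covN_anti (Lb_mono M (hRj j)) hcK
  have hstep : ∀ j : ℕ, covN K (Lb M (R ^ j))
      ≤ covN K (Lb M (R ^ (j + 1))) * (S j).card ^ T := by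
    intro j
    have e : R ^ (j + 1) = R * R ^ j := by ring
    have := one_scale (s := R ^ j) hK hMc hM hMs hM0 hT hα hκ hRpos (by positivity) hcond
      (by rw [← e]; exact hcovj (j + 1)) (F := (S j).card) (by
        intro S' hS'
        apply hSmax j
        rw [e]
        exact hS') (by
        intro X c h1 h2 h3 h4
        exact hκ2 (R ^ j) X c (hRj j) h1 h2 h3 (h4.trans (hNj j)))
    rw [← e] at this
    exact this
  have hprod : ∀ m : ℕ, covN K (Lb M 1)
      ≤ covN K (Lb M (R ^ m)) * (∏ j ∈ Finset.range m, (S j).card) ^ T := by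
    intro m
    induction m with
    | zero => simp
    | succ m ih =>
      refine ih.trans ?_
      refine (Nat.mul_le_mul_right _ (hstep m)).trans ?_
      rw [Finset.prod_range_succ, mul_pow]
      apply le_of_eq
      ring
  have hone : covN K (Lb M (R ^ (2 * J))) ≤ 1 := by
    have : covN K (Lb M (R ^ (2 * J))) ≤ ({0} : Finset E).card := by
      apply covN_le
      intro a ha
      refine ⟨0, by simp, ?_⟩
      rw [sub_zero]
      exact Lb_mono M (pow_le_pow_right₀ (by linarith) (by omega)) (hJ a ha)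
    simpa using this
  have hstack := stack hK hKs hM hMs hM0 hδpos hRδ hR1 S hS J
  have hY : ∀ j, ∏ i ∈ Finset.range J, (S (j + 2 * i)).card ≤ covN M (Lb K (δ / 16)) := by
    intro j
    obtain ⟨Y, hY1, hY2, hY3⟩ := hstack j
    rw [← hY1]
    have e : δ / 16 = (δ / 8) / 2 := by ring
    rw [e] at hcM ⊢
    apply sep_card_le hKs hcM Y hY2
    intro y hy y' hy' hne
    obtain ⟨x, hx, hx2⟩ := hY3 y hy y' hy' hne
    refine ⟨x, hx, lt_of_le_of_lt ?_ hx2⟩
    have := hRj j
    nlinarith
  calc covN K (Lb M 1)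
      ≤ covN K (Lb M (R ^ (2 * J))) * (∏ j ∈ Finset.range (2 * J), (S j).card) ^ T := hprod _
    _ ≤ 1 * (covN M (Lb K (δ / 16)) * covN M (Lb K (δ / 16))) ^ T := by
        apply Nat.mul_le_mul hone
        apply Nat.pow_le_pow_left
        rw [prod_even_odd (fun j => (S j).card)]
        exact Nat.mul_le_mul (hY 0) (hY 1)
    _ = covN M (Lb K (δ / 16)) ^ (2 * T) := by
        rw [one_mul, ← sq, ← pow_mul]

end Vale.Agent.P126
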