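import Mathlib

/-!
# Finite probability vectors: relative entropy and tilts
-/

namespace Vale.Agent.P126

open Finset

variable {ι : Type*} [Fintype ι]

/-- probability vectors -/
structure PV (Q : ι → ℝ) : Prop where
  nn : ∀ i, 0 ≤ Q i
  sum : ∑ i, Q i = 1

/-- relative entropy -/
noncomputable def kl (Q P : ι → ℝ) : ℝ := ∑ i, Q i * Real.log (Q i / P i)

lemma kl_nonneg {Q P : ι → ℝ} (hQ : PV Q) (hP : PV P) (hPpos : ∀ i, 0 < P i) : 0 ≤ kl Q P := by
  have h : ∀ i, Q i - P i ≤ Q i * Real.log (Q i / P i) := by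
    intro i
    rcases (hQ.nn i).eq_or_lt with h0 | h0
    · rw [← h0]
      have := hPpos i
      simp
      exact this.le
    · have h1 := Real.one_sub_inv_le_log_of_pos (div_pos h0 (hPpos i))
      have h2 : Q i * (1 - (Q i / P i)⁻¹) = Q i - P i := by
        have := (hPpos i).ne'
        field_simp
      rw [← h2]
      exact mul_le_mul_of_nonneg_left h1 h0.le
  have h2 : ∑ i, (Q i - P i) = 0 := by
    rw [Finset.sum_sub_distrib, hQ.sum, hP.sum, sub_self]
  rw [← h2]
  exact Finset.sum_le_sum fun i _ => h i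

/-- partition function -/
noncomputable def Zf (P f : ι → ℝ) : ℝ := ∑ i, P i * Real.exp (f i)

/-- tilted vector -/
noncomputable def tilt (P f : ι → ℝ) (i : ι) : ℝ := P i * Real.exp (f i) / Zf P f

lemma nonempty_of_pv {Q : ι → ℝ} (hQ : PV Q) : Nonempty ι := by
  by_contra h
  rw [not_nonempty_iff] at h
  have := hQ.sum
  rw [Finset.univ_eq_empty, Finset.sum_empty] at this
  norm_num at this

lemma Zf_pos {P : ι → ℝ} (hP : PV P) (hPpos : ∀ i, 0 < P i) (f : ι → ℝ) : 0 < Zf P f := by
  have := nonempty_of_pv hP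
  exact Finset.sum_pos (fun i _ => mul_pos (hPpos i) (Real.exp_pos _)) Finset.univ_nonempty

lemma tilt_pos {P : ι → ℝ} (hP : PV P) (hPpos : ∀ i, 0 < P i) (f : ι → ℝ) (i : ι) :
    0 < tilt P f i := div_pos (mul_pos (hPpos i) (Real.exp_pos _)) (Zf_pos hP hPpos f)

lemma tilt_pv {P : ι → ℝ} (hP : PV P) (hPpos : ∀ i, 0 < P i) (f : ι → ℝ) : PV (tilt P f) := by
  refine ⟨fun i => (tilt_pos hP hPpos f i).le, ?_⟩
  unfold tilt
  rw [← Finset.sum_div]
  exact div_self (Zf_pos hP hPpos f).ne'

/-- relative entropy with respect to a tilt -/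
lemma kl_of_tilt {Q P : ι → ℝ} (hQ : PV Q) (hP : PV P) (hPpos : ∀ i, 0 < P i) (f : ι → ℝ) :
    kl Q (tilt P f) = kl Q P - ∑ i, Q i * f i + Real.log (Zf P f) := by
  have hZ := Zf_pos hP hPpos f
  have h : ∀ i, Q i * Real.log (Q i / tilt P f i)
      = Q i * Real.log (Q i / P i) - Q i * f i + Q i * Real.log (Zf P f) := by
    intro i
    rcases (hQ.nn i).eq_or_lt with h0 | h0
    · rw [← h0]; simp
    · have hp := hPpos i
      have e : Q i / tilt P f i = (Q i / P i) * Zf P f / Real.exp (f i) := by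
        unfold tilt
        have := (Real.exp_pos (f i)).ne'
        field_simp
      rw [e, Real.log_div (by positivity) (Real.exp_pos _).ne', Real.log_mul (by positivity) hZ.ne',
        Real.log_exp]
      ring
  unfold kl
  rw [Finset.sum_congr rfl fun i _ => h i, Finset.sum_add_distrib, Finset.sum_sub_distrib,
    ← Finset.sum_mul, hQ.sum, one_mul]

/-- Donsker-Varadhan -/
lemma dv {Q P : ι → ℝ} (hQ : PV Q) (hP : PV P) (hPpos : ∀ i, 0 < P i) (f : ι → ℝ) :
    ∑ i, Q i * f i ≤ kl Q P + Real.log (Zf P f) := by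
  have h1 := kl_of_tilt hQ hP hPpos f
  have h2 := kl_nonneg hQ (tilt_pv hP hPpos f) (tilt_pos hP hPpos f)
  linarith

lemma kl_tilt_self {P : ι → ℝ} (hP : PV P) (hPpos : ∀ i, 0 < P i) (f : ι → ℝ) :
    kl (tilt P f) (tilt P f) = 0 := by
  unfold kl
  apply Finset.sum_eq_zero
  intro i _
  rw [div_self (tilt_pos hP hPpos f i).ne', Real.log_one, mul_zero]

lemma kl_tilt {P : ι → ℝ} (hP : PV P) (hPpos : ∀ i, 0 < P i) (f : ι → ℝ) :
    kl (tilt P f) P = ∑ i, tilt P f i * f i - Real.log (Zf P f) := by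
  have h1 := kl_of_tilt (tilt_pv hP hPpos f) hP hPpos f
  rw [kl_tilt_self hP hPpos f] at h1
  linarith

/-- symmetrised relative entropy of two tilts -/
lemma skl {P : ι → ℝ} (hP : PV P) (hPpos : ∀ i, 0 < P i) (f g : ι → ℝ) :
    kl (tilt P f) (tilt P g) + kl (tilt P g) (tilt P f)
      = ∑ i, (tilt P f i - tilt P g i) * (f i - g i) := by
  have h1 := kl_of_tilt (tilt_pv hP hPpos f) hP hPpos g
  have h2 := kl_of_tilt (tilt_pv hP hPpos g) hP hPpos f
  rw [h1, h2, kl_tilt hP hPpos f, kl_tilt hP hPpos g]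
  have e : ∑ i, (tilt P f i - tilt P g i) * (f i - g i)
      = ∑ i, tilt P f i * f i - ∑ i, tilt P f i * g i - ∑ i, tilt P g i * f i
        + ∑ i, tilt P g i * g i := by
    rw [← Finset.sum_sub_distrib, ← Finset.sum_sub_distrib, ← Finset.sum_add_distrib]
    apply Finset.sum_congr rfl
    intro i _
    ring
  rw [e]
  ring

/-- difference of means of a bounded function -/
lemma mean_diff {Q P : ι → ℝ} (hQ : PV Q) (hP : PV P) (hPpos : ∀ i, 0 < P i) (f : ι → ℝ)
    {R D : ℝ} (hR : 0 < R) (hD : 0 < D) (hD1 : D ≤ 1) (hf : ∀ i j, f i - f j ≤ 2 * R)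
    (hkl : kl Q P ≤ D) : ∑ i, Q i * f i - ∑ i, P i * f i ≤ 4 * R * √D := by
  set m := ∑ i, P i * f i with hm
  set θ := √D / (2 * R) with hθ
  have hs : 0 < √D := Real.sqrt_pos.2 hD
  have hs1 : √D ≤ 1 := Real.sqrt_le_one.2 hD1
  have hss : √D * √D = D := Real.mul_self_sqrt hD.le
  have hθp : 0 < θ := by positivity
  have hfm : ∀ i, |f i - m| ≤ 2 * R := by
    intro i
    have e1 : f i - m = ∑ j, P j * (f i - f j) := by
      simp_rw [mul_sub]
      rw [Finset.sum_sub_distrib, ← Finset.sum_mul, hP.sum, one_mul]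
    rw [e1]
    refine (Finset.abs_sum_le_sum_abs _ _).trans ?_
    have : ∑ j, |P j * (f i - f j)| ≤ ∑ j, P j * (2 * R) := by
      apply Finset.sum_le_sum
      intro j _
      rw [abs_mul, abs_of_pos (hPpos j)]
      apply mul_le_mul_of_nonneg_left _ (hPpos j).le
      rw [abs_le]
      have h1 := hf i j
      have h2 := hf j i
      constructor <;> linarith
    refine this.trans ?_
    rw [← Finset.sum_mul, hP.sum, one_mul]
  have hZ : Real.log (Zf P fun i => θ * (f i - m)) ≤ D := by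
    have h1 : Zf P (fun i => θ * (f i - m)) ≤ 1 + D := by
      unfold Zf
      have h2 : ∀ i, P i * Real.exp (θ * (f i - m)) ≤ P i * (1 + θ * (f i - m) + D) := by
        intro i
        apply mul_le_mul_of_nonneg_left _ (hPpos i).le
        have h3 : |θ * (f i - m)| ≤ √D := by
          rw [abs_mul, abs_of_pos hθp]
          calc θ * |f i - m| ≤ θ * (2 * R) := mul_le_mul_of_nonneg_left (hfm i) hθp.le
            _ = √D := by rw [hθ]; field_simp
        have h4 : |θ * (f i - m)| ≤ 1 := h3.trans hs1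
        have h5 := Real.abs_exp_sub_one_sub_id_le h4
        have h6 := (abs_le.1 h5).2
        have h7 : (θ * (f i - m)) ^ 2 ≤ D := by
          rw [← hss, ← sq_abs, sq]
          exact mul_self_le_mul_self (abs_nonneg _) h3
        linarith
      refine (Finset.sum_le_sum fun i _ => h2 i).trans ?_
      have e : ∑ i, P i * (1 + θ * (f i - m) + D)
          = ∑ i, P i + θ * (∑ i, P i * f i - (∑ i, P i) * m) + (∑ i, P i) * D := by
        rw [Finset.sum_mul, Finset.sum_mul, ← Finset.sum_sub_distrib, Finset.mul_sum,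
          ← Finset.sum_add_distrib, ← Finset.sum_add_distrib]
        apply Finset.sum_congr rfl
        intro i _
        ring
      rw [e, hP.sum, ← hm]
      linarith
    have h2 := Real.log_le_log (Zf_pos hP hPpos _) h1
    have h3 := Real.log_le_sub_one_of_pos (show (0 : ℝ) < 1 + D by linarith)
    linarith
  have h1 := dv hQ hP hPpos fun i => θ * (f i - m)
  have e2 : ∑ i, Q i * (θ * (f i - m)) = θ * (∑ i, Q i * f i - m) := by
    have : ∑ i, Q i * (θ * (f i - m)) = θ * (∑ i, Q i * f i - (∑ i, Q i) * m) := by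
      rw [Finset.sum_mul, ← Finset.sum_sub_distrib, Finset.mul_sum]
      apply Finset.sum_congr rfl
      intro i _
      ring
    rw [this, hQ.sum, one_mul]
  rw [e2] at h1
  have h2 : θ * (∑ i, Q i * f i - m) ≤ 2 * D := by linarith
  have h3 : θ * (4 * R * √D) = 2 * D := by
    rw [hθ]
    field_simp
    nlinarith [hss]
  rw [← h3] at h2
  exact le_of_mul_le_mul_left h2 hθp

end Vale.Agent.P126
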