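import Vale.Agent.P126.Core

/-!
# The rounds
-/

namespace Vale.Agent.P126

open Finset Filter Topology

variable {ι : Type*} [Fintype ι]
variable {E : Type*} [NormedAddCommGroup E] [InnerProductSpace ℝ E]

/-- state after `t` rounds -/
structure St (x : ι → E) (M : Set E) (F : ℕ) (κ α ε : ℝ) (t : ℕ) (A : Finset ι) (P : ι → ℝ)
    (Q : ι → ι → ℝ) : Prop where
  pv : PV P
  pos : ∀ i, 0 < P i
  card : Fintype.card ι ≤ F ^ t * A.card
  q : ∀ i ∈ A, PV (Q i)
  kl : ∀ i ∈ A, kl (Q i) P ≤ α ^ t * κ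
  app : ∀ i ∈ A, ∀ y ∈ M, inner ℝ (x i - bar x (Q i)) y ≤ t * ε

open Classical in
lemma init (x : ι → E) [Nonempty ι] (M : Set E) (F : ℕ) {κ α ε : ℝ}
    (hκ2 : Real.log (Fintype.card ι) ≤ κ) :
    St x M F κ α ε 0 Finset.univ (fun _ => 1 / (Fintype.card ι : ℝ)) fun i => Pi.single i 1 := by
  have hN : (0 : ℝ) < Fintype.card ι := by exact_mod_cast Fintype.card_pos
  refine ⟨⟨fun i => by positivity, ?_⟩, fun i => by positivity, ?_, ?_, ?_, ?_⟩
  · rw [Finset.sum_const, Finset.card_univ, nsmul_eq_mul]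
    field_simp
  · simp
  · intro i _
    refine ⟨fun j => ?_, ?_⟩
    · rw [Pi.single_apply]
      split_ifs <;> norm_num
    · rw [Finset.sum_pi_single']
      simp
  · intro i _
    unfold kl
    rw [Finset.sum_eq_single i]
    · simp only [Pi.single_eq_same, one_mul, pow_zero, one_div, inv_inv]
      exact hκ2
    · intro j _ hj
      rw [Pi.single_eq_of_ne hj, zero_mul]
    · intro h
      exact absurd (Finset.mem_univ i) h
  · intro i _ y _
    have : bar x (Pi.single i 1) = x i := by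
      unfold bar
      rw [Finset.sum_eq_single i]
      · simp
      · intro j _ hj
        rw [Pi.single_eq_of_ne hj, zero_smul]
      · intro h
        exact absurd (Finset.mem_univ i) h
    rw [this, sub_self, inner_zero_left]
    simp

open Classical in
lemma step {M : Set E} (hMc : IsCompact M) (hM : Convex ℝ M) (h0 : (0 : E) ∈ M)
    (x : ι → E) {F : ℕ} {κ α ε : ℝ} (hκ : 0 < κ) (hα : 0 < α) (hε : 0 < ε)
    (hF : ∀ S, Fool (convexHull ℝ (Set.range x)) M (α * ε) S → S.card ≤ F)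
    {t : ℕ} {A : Finset ι} {P : ι → ℝ} {Q : ι → ι → ℝ} (h : St x M F κ α ε t A P Q) :
    ∃ A' P' Q', St x M F κ α ε (t + 1) A' P' Q' := by
  have hι := nonempty_of_pv h.pv
  have hApos : 0 < A.card := by
    have h1 := h.card
    have h2 : 0 < Fintype.card ι := Fintype.card_pos
    rcases Nat.eq_zero_or_pos A.card with h3 | h3
    · rw [h3] at h1; omega
    · exact h3
  set D := α ^ t * κ with hD
  have hDpos : 0 < D := by positivity
  set l := D / ε with hl
  have hlpos : 0 < l := by positivity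
  have hDl : D / l = ε := by rw [hl]; field_simp
  have hex : ∀ i, ∃ y, i ∈ A → y ∈ M ∧ ∀ y' ∈ M,
      inner ℝ (bar x (Q i) - bar x (tilt P fun j => l * inner ℝ (x j) y)) y' ≤ ε := by
    intro i
    by_cases hi : i ∈ A
    · obtain ⟨y, hy, hy2⟩ := approx_tilt hMc hM h0 x h.pv h.pos (h.q i hi) hlpos (h.kl i hi)
      rw [← hD, hDl] at hy2
      exact ⟨y, fun _ => ⟨hy, hy2⟩⟩
    · exact ⟨0, fun hi' => absurd hi' hi⟩
  choose y hy using hex
  set τ : ι → ι → ℝ := fun i => tilt P fun j => l * inner ℝ (x j) (y i) with hτ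
  have hτpv : ∀ i, PV (τ i) := fun i => tilt_pv h.pv h.pos _
  set w : ι → E × E := fun i => (bar x (τ i), y i) with hw
  obtain ⟨S, hSW, hSF, hnet⟩ := exists_fool (convexHull ℝ (Set.range x)) M
    (δ := α * ε) (by positivity) (A.image w) (by
      intro p hp
      rw [Finset.mem_image] at hp
      obtain ⟨i, hi, rfl⟩ := hp
      exact ⟨bar_mem x (hτpv i), (hy i hi).1⟩)
  have hScard := hF S hSF
  have hex2 : ∀ i, ∃ q, i ∈ A → q ∈ S ∧ |inner ℝ ((w i).1 - q.1) ((w i).2 - q.2)| ≤ α * ε := by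
    intro i
    by_cases hi : i ∈ A
    · obtain ⟨q, hq, hq2⟩ := hnet (w i) (Finset.mem_image_of_mem w hi)
      exact ⟨q, fun _ => ⟨hq, hq2⟩⟩
    · exact ⟨0, fun hi' => absurd hi' hi⟩
  choose c hc using hex2
  have hpig : ∃ q ∈ S, A.card ≤ S.card * (A.filter fun i => c i = q).card := by
    by_contra hcon
    push Not at hcon
    have hS : S.Nonempty := by
      obtain ⟨i, hi⟩ := Finset.card_pos.1 hApos
      exact ⟨c i, (hc i hi).1⟩
    have h1 : ∑ q ∈ S, S.card * (A.filter fun i => c i = q).card < ∑ q ∈ S, A.card :=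
      Finset.sum_lt_sum_of_nonempty hS hcon
    rw [← Finset.mul_sum, ← Finset.card_eq_sum_card_fiberwise (fun i hi => (hc i hi).1),
      Finset.sum_const, smul_eq_mul] at h1
    exact lt_irrefl _ h1
  obtain ⟨q, hqS, hqcard⟩ := hpig
  obtain ⟨j, hjA, hj⟩ := Finset.mem_image.1 (hSW hqS)
  refine ⟨A.filter fun i => c i = q, τ j, τ, hτpv j, fun i => tilt_pos h.pv h.pos _ i, ?_, ?_, ?_, ?_⟩
  · calc Fintype.card ι ≤ F ^ t * A.card := h.card
      _ ≤ F ^ t * (F * (A.filter fun i => c i = q).card) :=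
        Nat.mul_le_mul_left _ (hqcard.trans (Nat.mul_le_mul_right _ hScard))
      _ = _ := by ring
  · intro i _
    exact hτpv i
  · intro i hi
    rw [Finset.mem_filter] at hi
    have h1 := skl_bar x h.pv h.pos (l := l) (y i) (y j)
    have h2 := kl_nonneg (hτpv j) (hτpv i) (fun k => tilt_pos h.pv h.pos _ k)
    have h3 := (hc i hi.1).2
    rw [hi.2, ← hj] at h3
    have h4 := le_of_abs_le h3
    have h5 : l * (α * ε) = α ^ (t + 1) * κ := by
      rw [hl, hD]
      field_simp
      ring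
    rw [← h5]
    have h6 : l * inner ℝ (bar x (τ i) - bar x (τ j)) (y i - y j) ≤ l * (α * ε) :=
      mul_le_mul_of_nonneg_left h4 hlpos.le
    have h7 : kl (τ i) (τ j) + kl (τ j) (τ i)
      = l * inner ℝ (bar x (τ i) - bar x (τ j)) (y i - y j) := h1
    linarith
  · intro i hi y' hy'
    rw [Finset.mem_filter] at hi
    have h1 := h.app i hi.1 y' hy'
    have h2 := (hy i hi.1).2 y' hy'
    have h3 : inner ℝ (x i - bar x (τ i)) y'
        = inner ℝ (x i - bar x (Q i)) y' + inner ℝ (bar x (Q i) - bar x (τ i)) y' := by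
      rw [← inner_add_left]
      congr 1
      abel
    rw [h3]
    push_cast
    have h4 : inner ℝ (bar x (Q i) - bar x (τ i)) y' ≤ ε := h2
    linarith

/-- the core theorem -/
theorem core {M : Set E} (hMc : IsCompact M) (hM : Convex ℝ M) (hMs : ∀ y ∈ M, -y ∈ M)
    (h0 : (0 : E) ∈ M) (x : ι → E) (hsep : ∀ i j, i ≠ j → ∃ y ∈ M, 1 < inner ℝ (x i - x j) y)
    {R : ℝ} (hR : 0 < R) (hdiam : ∀ i j, ∀ y ∈ M, inner ℝ (x i - x j) y ≤ 2 * R) {F T : ℕ}
    (hT : 0 < T) {α κ : ℝ} (hα : 0 < α) (hκ : 0 < κ) (hκ2 : Real.log (Fintype.card ι) ≤ κ)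
    (hF : ∀ S, Fool (convexHull ℝ (Set.range x)) M (α / (8 * T)) S → S.card ≤ F)
    (hcond : 256 * R ^ 2 * (α ^ T * κ) ≤ 1) [Nonempty ι] : Fintype.card ι ≤ F ^ T := by
  classical
  have hTr : (0 : ℝ) < T := by exact_mod_cast hT
  set ε : ℝ := 1 / (8 * T) with hε
  have hεpos : 0 < ε := by positivity
  have hF' : ∀ S, Fool (convexHull ℝ (Set.range x)) M (α * ε) S → S.card ≤ F := by
    intro S hS
    apply hF
    have : α * ε = α / (8 * T) := by rw [hε]; ring
    rw [← this]
    exact hS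
  have hrounds : ∀ t, ∃ A P Q, St x M F κ α ε t A P Q := by
    intro t
    induction t with
    | zero => exact ⟨_, _, _, init x M F hκ2⟩
    | succ t ih =>
      obtain ⟨A, P, Q, h⟩ := ih
      exact step hMc hM h0 x hκ hα hεpos hF' h
  obtain ⟨A, P, Q, h⟩ := hrounds T
  have hA : A.card ≤ 1 := by
    rw [Finset.card_le_one]
    intro i hi j hj
    by_contra hne
    obtain ⟨y, hy, hy2⟩ := hsep i j hne
    have hd := hdiam i j y hy
    have hR2 : 1 / 2 < R := by linarith
    set D := α ^ T * κ with hD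
    have hDpos : 0 < D := by positivity
    have hD1 : D ≤ 1 := by
      have h1 : 256 * (1 / 2 : ℝ) ^ 2 * D ≤ 256 * R ^ 2 * D := by
        apply mul_le_mul_of_nonneg_right _ hDpos.le
        nlinarith
      linarith
    have hs : 16 * (R * √D) ≤ 1 := by
      have h1 : (16 * (R * √D)) ^ 2 ≤ 1 ^ 2 := by
        rw [mul_pow, mul_pow, Real.sq_sqrt hDpos.le]
        linarith
      exact le_of_sq_le_sq h1 (by norm_num)
    have m1 := mean_diff (h.q i hi) h.pv h.pos (fun k => inner ℝ (x k) y) hR hDpos hD1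
      (fun a b => by rw [← inner_sub_left]; exact hdiam a b y hy) (h.kl i hi)
    have m2 := mean_diff (h.q j hj) h.pv h.pos (fun k => inner ℝ (x k) (-y)) hR hDpos hD1
      (fun a b => by rw [← inner_sub_left]; exact hdiam a b (-y) (hMs y hy)) (h.kl j hj)
    rw [← inner_bar, ← inner_bar] at m1 m2
    have a1 := h.app i hi y hy
    have a2 := h.app j hj (-y) (hMs y hy)
    have hTε : (T : ℝ) * ε = 1 / 8 := by rw [hε]; field_simp
    rw [hTε] at a1 a2
    rw [inner_neg_right, inner_neg_right] at m2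
    rw [inner_neg_right] at a2
    rw [inner_sub_left] at a1 a2 hy2
    linarith
  calc Fintype.card ι ≤ F ^ T * A.card := h.card
    _ ≤ F ^ T * 1 := Nat.mul_le_mul_left _ hA
    _ = F ^ T := by ring

end Vale.Agent.P126
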